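import Vale.Agent.P065.Cfg

/-! P065: a starting configuration with many slots, and tangents of a parabola. -/

namespace Vale.Agent.P065

open Classical Finset Filter Topology

/-- height of the line `i` over the slot `v` -/
def baseAuxD {ι W : Type} (σ c : ι → ℝ) (q : W → ι) (tm : W → ℝ) (v : W) (i : ι) : ℝ :=
  (σ i - σ (q v)) * tm v + (c i - c (q v))

/-- height of an intermediate line of the slot `w` over the slot `v` -/
def baseAuxA {ι W : Type} (σ c : ι → ℝ) (p q : W → ι) (tm : W → ℝ) (v w : W) (l : ℝ) : ℝ :=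
  (1 - l) * baseAuxD σ c q tm v (p w) + l * baseAuxD σ c q tm v (q w)

/-- the invariant of the doubling construction -/
structure BaseAuxNC {ι W : Type} [Fintype ι] [Fintype W] (σ c : ι → ℝ) (p q : W → ι) (tm : W → ℝ)
    (g l0 : ℝ) (β γ : ℕ) : Prop where
  g_pos : 0 < g
  gap : ∀ w, σ (q w) = σ (p w) + g
  meet : ∀ w, baseAuxD σ c q tm w (p w) = 0
  ne : ∀ v i, i ≠ p v → i ≠ q v → baseAuxD σ c q tm v i ≠ 0
  cnt : ∀ v, ∑ i, (if baseAuxD σ c q tm v i < 0 then 1 else 0) = β
  sep : ∀ v w, w ≠ v → (∀ l, l0 ≤ l → l ≤ 1 - l0 → baseAuxA σ c p q tm v w l < 0) ∨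
    ∀ l, l0 ≤ l → l ≤ 1 - l0 → 0 < baseAuxA σ c p q tm v w l
  cnt2 : ∀ v, ∑ w, (if baseAuxA σ c p q tm v w (1 / 2) < 0 then 1 else 0) = γ

/-- new lower lines -/
def baseAuxP {ι W : Type} {a : ℕ} (p : W → ι) : W × Fin a × Bool → (ι × Fin a) ⊕ W
  | (w, t, false) => Sum.inl (p w, t)
  | (w, _, true) => Sum.inr w

/-- new upper lines -/
def baseAuxQ {ι W : Type} {a : ℕ} (q : W → ι) : W × Fin a × Bool → (ι × Fin a) ⊕ W
  | (w, _, false) => Sum.inr w
  | (w, t, true) => Sum.inl (q w, t)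

/-- heights of the sibling lines -/
noncomputable def baseAuxK {a : ℕ} (b b' : Bool) (t t' : Fin a) : ℝ :=
  if b = b' then (t' : ℝ) - t else (t : ℝ) + t' - (a - 1 / 2)

theorem baseAux_K_ne {a : ℕ} {b b' : Bool} {t t' : Fin a} (h : ¬ (t' = t ∧ b' = b)) :
    baseAuxK b b' t t' ≠ 0 := by
  unfold baseAuxK
  split_ifs with hb
  · intro e
    exact h ⟨Fin.ext (Nat.cast_injective (R := ℝ) (by linarith)), hb.symm⟩
  · intro e
    have h1 : (2 * (t + t' : ℕ) + 1 : ℝ) = 2 * a := by push_cast; linarith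
    have h2 : 2 * ((t : ℕ) + t') + 1 = 2 * a := by exact_mod_cast h1
    omega

theorem baseAux_K_sum {a : ℕ} (b : Bool) (t : Fin a) :
    ∑ t' : Fin a, ((if baseAuxK b false t t' < 0 then 1 else 0) +
      (if baseAuxK b true t t' < 0 then 1 else 0)) = a := by
  have h1 : ∀ t' : Fin a, (t' : ℝ) - t < 0 ↔ t' < t := fun t' => by
    rw [sub_neg, Nat.cast_lt, Fin.lt_def]
  have h2 : ∀ t' : Fin a, (t : ℝ) + t' - (a - 1 / 2) < 0 ↔ ¬ Fin.rev t' < t := fun t' => by
    rw [Fin.lt_def, Fin.val_rev]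
    have := t'.2
    constructor
    · intro h
      have h3 : ((t + t' : ℕ) : ℝ) < a := by push_cast; linarith
      have h4 : (t : ℕ) + t' < a := by exact_mod_cast h3
      omega
    · intro h
      have h4 : (t : ℕ) + t' + 1 ≤ a := by omega
      have h3 : ((t + t' + 1 : ℕ) : ℝ) ≤ a := by exact_mod_cast h4
      push_cast at h3
      linarith
  have h3 : ∑ t' : Fin a, (if ¬ Fin.rev t' < t then 1 else 0)
      = ∑ t' : Fin a, (if ¬ t' < t then 1 else 0) :=
    Equiv.sum_comp Fin.revPerm fun t' => if ¬ t' < t then 1 else 0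
  have h4 : ∑ t' : Fin a, (if t' < t then 1 else 0) + ∑ t' : Fin a, (if ¬ t' < t then 1 else 0)
      = a := by
    rw [← sum_add_distrib, sum_congr rfl (g := fun _ => 1) fun t' _ => by split_ifs <;> simp_all]
    simp
  rw [sum_add_distrib]
  cases b
  · simp only [baseAuxK, if_true, Bool.false_eq_true, if_false, h1, h2]
    rw [h3, h4]
  · simp only [baseAuxK, if_true, Bool.true_eq_false, if_false, h1, h2]
    rw [h3, add_comm, h4]

theorem baseAux_small {κ : Type} [Finite κ] (x y : κ → ℝ) :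
    ∀ᶠ η in 𝓝 (0 : ℝ), ∀ k, (x k < 0 → x k + η * y k < 0) ∧ (0 < x k → 0 < x k + η * y k) := by
  simp only [eventually_all, eventually_and]
  intro k
  exact ⟨fun h => ContinuousAt.eventually_lt (by fun_prop) (by fun_prop) (by simpa using h),
    fun h => ContinuousAt.eventually_lt (by fun_prop) (by fun_prop) (by simpa using h)⟩

theorem baseAux_aff {x y l0 l : ℝ} (h1 : (1 - l0) * x + l0 * y < 0)
    (h2 : (1 - (1 - l0)) * x + (1 - l0) * y < 0) (ha : l0 ≤ l) (hb : l ≤ 1 - l0) :
    (1 - l) * x + l * y < 0 := by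
  rcases le_total x y with h | h
  · nlinarith [mul_nonneg (sub_nonneg.2 hb) (sub_nonneg.2 h)]
  · nlinarith [mul_nonneg (sub_nonneg.2 ha) (sub_nonneg.2 h)]

theorem baseAux_aff' {x y l0 l : ℝ} (h1 : 0 < (1 - l0) * x + l0 * y)
    (h2 : 0 < (1 - (1 - l0)) * x + (1 - l0) * y) (ha : l0 ≤ l) (hb : l ≤ 1 - l0) :
    0 < (1 - l) * x + l * y := by
  have := baseAux_aff (x := -x) (y := -y) (by linarith) (by linarith) ha hb
  linarith

theorem baseAux_step {ι W : Type} [Fintype ι] [Fintype W] {σ c : ι → ℝ} {p q : W → ι}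
    {tm : W → ℝ} {g l0 : ℝ} {β γ : ℕ} (H : BaseAuxNC σ c p q tm g l0 β γ) (h0 : 0 < l0)
    (h4 : l0 ≤ 1 / 4) (a : ℕ) :
    ∃ (σ' c' : (ι × Fin a) ⊕ W → ℝ) (tm' : W × Fin a × Bool → ℝ),
      BaseAuxNC σ' c' (baseAuxP p) (baseAuxQ q) tm' (g / 2) (2 * l0) (a * β + a + γ)
        (2 * a * γ + a) := by
  set h : ℝ := a / 2 - 1 / 4 with hh
  have hg := H.g_pos
  let s : W × Fin a × Bool → ℝ := fun x =>
    (if x.2.2 then h - x.2.1 else x.2.1 - h) / (g / 2)
  let σ' : (ι × Fin a) ⊕ W → ℝ := Sum.elim (fun x => σ x.1) fun w => (σ (p w) + σ (q w)) / 2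
  let c' : ℝ → (ι × Fin a) ⊕ W → ℝ := fun η =>
    Sum.elim (fun x => c x.1 + η * x.2) fun w => (c (p w) + c (q w)) / 2 + η * h
  let tm' : ℝ → W × Fin a × Bool → ℝ := fun η x => tm x.1 + η * s x
  let D0 : W × Fin a × Bool → (ι × Fin a) ⊕ W → ℝ := fun x =>
    Sum.elim (fun i => baseAuxD σ c q tm x.1 i.1) fun w => baseAuxA σ c p q tm x.1 w (1 / 2)
  let E : W × Fin a × Bool → (ι × Fin a) ⊕ W → ℝ := fun x i =>
    (σ' i - σ' (Sum.inr x.1)) * s x + Sum.elim (fun i => (i.2 : ℝ) - h) (fun _ => 0) i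
  have hs0 : ∀ v t, g / 2 * s (v, t, false) = t - h := fun v t => by
    simp only [s, Bool.false_eq_true, if_false]; field_simp
  have hs1 : ∀ v t, g / 2 * s (v, t, true) = h - t := fun v t => by
    simp only [s, if_true]; field_simp
  have hq0 : ∀ v, baseAuxD σ c q tm v (q v) = 0 := fun v => by simp [baseAuxD]
  have hA0 : ∀ v l, baseAuxA σ c p q tm v v l = 0 := fun v l => by
    simp [baseAuxA, hq0, H.meet]
  have hD : ∀ η x i, baseAuxD σ' (c' η) (baseAuxQ q) (tm' η) x i = D0 x i + η * E x i := by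
    rintro η ⟨v, t, b⟩ i
    have m := H.meet v
    have k := H.gap v
    have k0 := hs0 v t
    have k1 := hs1 v t
    simp only [baseAuxD] at m
    rcases i with ⟨i, t'⟩ | w <;> cases b <;>
      simp only [baseAuxD, baseAuxA, baseAuxQ, σ', c', tm', D0, E, Sum.elim_inl, Sum.elim_inr]
    · linear_combination (-1 / 2) * m
    · linear_combination (-η) * k1 - η * s (v, t, true) / 2 * k
    · linear_combination (-1 / 2) * m
    · linear_combination (-η) * k1 - η * s (v, t, true) / 2 * k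
  have hEp : ∀ v t b t', E (v, t, b) (Sum.inl (p v, t')) = baseAuxK b false t t' := by
    intro v t b t'
    have k := H.gap v
    have k0 := hs0 v t
    have k1 := hs1 v t
    cases b <;> simp only [E, σ', Sum.elim_inl, Sum.elim_inr, baseAuxK, if_true,
      Bool.true_eq_false, if_false]
    · linear_combination (-1) * k0 - s (v, t, false) / 2 * k
    · linear_combination (-1) * k1 - s (v, t, true) / 2 * k - 2 * hh
  have hEq : ∀ v t b t', E (v, t, b) (Sum.inl (q v, t')) = baseAuxK b true t t' := by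
    intro v t b t'
    have k := H.gap v
    have k0 := hs0 v t
    have k1 := hs1 v t
    cases b <;> simp only [E, σ', Sum.elim_inl, Sum.elim_inr, baseAuxK, if_true,
      Bool.false_eq_true, if_false]
    · linear_combination k0 + s (v, t, false) / 2 * k - 2 * hh
    · linear_combination k1 + s (v, t, true) / 2 * k
  have hEr : ∀ x, E x (Sum.inr x.1) = 0 := fun x => by simp [E]
  obtain ⟨η, ⟨e1, e2⟩, hη⟩ := ((((baseAux_small (κ := (W × Fin a × Bool) × ((ι × Fin a) ⊕ W))
    (fun k => D0 k.1 k.2) fun k => E k.1 k.2).and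
    (baseAux_small (κ := (W × Fin a × Bool) × (W × Fin a × Bool) × Bool)
      (fun k => (1 - (if k.2.2 then 2 * l0 else 1 - 2 * l0)) * D0 k.1 (baseAuxP p k.2.1) +
        (if k.2.2 then 2 * l0 else 1 - 2 * l0) * D0 k.1 (baseAuxQ q k.2.1))
      fun k => (1 - (if k.2.2 then 2 * l0 else 1 - 2 * l0)) * E k.1 (baseAuxP p k.2.1) +
        (if k.2.2 then 2 * l0 else 1 - 2 * l0) * E k.1 (baseAuxQ q k.2.1))).filter_mono
      (nhdsWithin_le_nhds (s := Set.Ioi 0))).and self_mem_nhdsWithin).exists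
  replace hη : 0 < η := hη
  set D' := baseAuxD σ' (c' η) (baseAuxQ q) (tm' η) with hD'
  set A' := baseAuxA σ' (c' η) (baseAuxP p) (baseAuxQ q) (tm' η) with hA'
  have hsg : ∀ x i, D0 x i ≠ 0 → D' x i ≠ 0 ∧ (D' x i < 0 ↔ D0 x i < 0) := by
    intro x i hx
    rw [hD', hD]
    rcases lt_or_gt_of_ne hx with h1 | h1
    · exact ⟨((e1 (x, i)).1 h1).ne, iff_of_true ((e1 (x, i)).1 h1) h1⟩
    · exact ⟨((e1 (x, i)).2 h1).ne', iff_of_false ((e1 (x, i)).2 h1).not_gt h1.not_gt⟩
  have hDp : ∀ v t b t', D' (v, t, b) (Sum.inl (p v, t')) = η * baseAuxK b false t t' := by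
    intro v t b t'
    rw [hD', hD, hEp]
    simp only [D0, Sum.elim_inl, H.meet, zero_add]
  have hDq : ∀ v t b t', D' (v, t, b) (Sum.inl (q v, t')) = η * baseAuxK b true t t' := by
    intro v t b t'
    rw [hD', hD, hEq]
    simp only [D0, Sum.elim_inl, hq0, zero_add]
  have hDr : ∀ v t b, D' (v, t, b) (Sum.inr v) = 0 := by
    intro v t b
    rw [hD', hD, hEr (v, t, b)]
    simp only [D0, Sum.elim_inr, hA0, mul_zero, add_zero]
  have hpq : ∀ v, p v ≠ q v := fun v e => by
    have := H.gap v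
    rw [e] at this
    linarith
  have hneg : ∀ z : ℝ, η * z < 0 ↔ z < 0 := fun z =>
    ⟨fun h => by by_contra hb; nlinarith [mul_nonneg hη.le (not_lt.1 hb)],
      mul_neg_of_pos_of_neg hη⟩
  have hhalf : ∀ v w, w ≠ v → baseAuxA σ c p q tm v w (1 / 2) ≠ 0 := fun v w hw =>
    (H.sep v w hw).elim (fun h1 => (h1 _ (by linarith) (by linarith)).ne)
      fun h1 => (h1 _ (by linarith) (by linarith)).ne'
  have hold : ∀ v t b w t' b' l, (1 - l) * D0 (v, t, b) (baseAuxP p (w, t', b')) +
      l * D0 (v, t, b) (baseAuxQ q (w, t', b')) =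
      baseAuxA σ c p q tm v w (if b' then (1 + l) / 2 else l / 2) := by
    intro v t b w t' b' l
    cases b' <;> simp only [D0, baseAuxP, baseAuxQ, Sum.elim_inl, Sum.elim_inr, baseAuxA, if_true,
      Bool.false_eq_true, if_false] <;> ring
  have hnew : ∀ x y l, A' x y l = (1 - l) * D0 x (baseAuxP p y) + l * D0 x (baseAuxQ q y) +
      η * ((1 - l) * E x (baseAuxP p y) + l * E x (baseAuxQ q y)) := by
    intro x y l
    rw [hA', baseAuxA, hD, hD]
    ring
  have hrng : ∀ (b' : Bool) l, 2 * l0 ≤ l → l ≤ 1 - 2 * l0 →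
      l0 ≤ (if b' then (1 + l) / 2 else l / 2) ∧ (if b' then (1 + l) / 2 else l / 2) ≤ 1 - l0 := by
    intro b' l h1 h2
    cases b' <;> simp only [if_true, Bool.false_eq_true, if_false] <;> constructor <;> linarith
  have hsN : ∀ v t b w t' b', (∀ l, l0 ≤ l → l ≤ 1 - l0 → baseAuxA σ c p q tm v w l < 0) →
      ∀ l, 2 * l0 ≤ l → l ≤ 1 - 2 * l0 → A' (v, t, b) (w, t', b') l < 0 := by
    intro v t b w t' b' h1 l ha hb
    have k1 := (e2 ((v, t, b), (w, t', b'), true)).1
    have k2 := (e2 ((v, t, b), (w, t', b'), false)).1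
    simp only [if_true, Bool.false_eq_true, if_false] at k1 k2
    rw [← hnew, hold] at k1 k2
    have r1 := hrng b' (2 * l0) le_rfl (by linarith)
    have r2 := hrng b' (1 - 2 * l0) (by linarith) le_rfl
    exact baseAux_aff (k1 (h1 _ r1.1 r1.2)) (k2 (h1 _ r2.1 r2.2)) ha hb
  have hsP : ∀ v t b w t' b', (∀ l, l0 ≤ l → l ≤ 1 - l0 → 0 < baseAuxA σ c p q tm v w l) →
      ∀ l, 2 * l0 ≤ l → l ≤ 1 - 2 * l0 → 0 < A' (v, t, b) (w, t', b') l := by
    intro v t b w t' b' h1 l ha hb
    have k1 := (e2 ((v, t, b), (w, t', b'), true)).2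
    have k2 := (e2 ((v, t, b), (w, t', b'), false)).2
    simp only [if_true, Bool.false_eq_true, if_false] at k1 k2
    rw [← hnew, hold] at k1 k2
    have r1 := hrng b' (2 * l0) le_rfl (by linarith)
    have r2 := hrng b' (1 - 2 * l0) (by linarith) le_rfl
    exact baseAux_aff' (k1 (h1 _ r1.1 r1.2)) (k2 (h1 _ r2.1 r2.2)) ha hb
  have hsib : ∀ v t b t' b' l, A' (v, t, b) (v, t', b') l =
      (if b' then l else 1 - l) * (η * baseAuxK b b' t t') := by
    intro v t b t' b' l
    rw [hA', baseAuxA, ← hD']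
    cases b' <;> simp only [baseAuxP, baseAuxQ, hDp, hDq, hDr, if_true, Bool.false_eq_true,
      if_false] <;> ring
  refine ⟨σ', c' η, tm' η, half_pos hg, ?_, ?_, ?_, ?_, ?_, ?_⟩
  · rintro ⟨v, t, b⟩
    have k := H.gap v
    cases b <;> simp only [σ', baseAuxP, baseAuxQ, Sum.elim_inl, Sum.elim_inr] <;> linarith
  · rintro ⟨v, t, b⟩
    rw [← hD']
    cases b
    · simp [baseAuxP, hDp, baseAuxK]
    · simp only [baseAuxP, hDr]
  · rintro ⟨v, t, b⟩ (⟨i, t'⟩ | w) ha hb
    · rw [← hD']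
      by_cases h1 : i = p v
      · rw [h1, hDp]
        refine mul_ne_zero hη.ne' (baseAux_K_ne ?_)
        rintro ⟨rfl, rfl⟩
        exact ha (by rw [h1]; rfl)
      by_cases h2 : i = q v
      · rw [h2, hDq]
        refine mul_ne_zero hη.ne' (baseAux_K_ne ?_)
        rintro ⟨rfl, rfl⟩
        exact hb (by rw [h2]; rfl)
      exact (hsg (v, t, b) (Sum.inl (i, t')) (H.ne v i h1 h2)).1
    · refine (hsg (v, t, b) (Sum.inr w) (hhalf v w ?_)).1
      rintro rfl
      cases b
      · exact hb rfl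
      · exact ha rfl
  · rintro ⟨v, t, b⟩
    rw [← hD', Fintype.sum_sum_type, Fintype.sum_prod_type_right]
    have k1 : ∀ (t' : Fin a) i, (if D' (v, t, b) (Sum.inl (i, t')) < 0 then 1 else 0) =
        (if baseAuxD σ c q tm v i < 0 then 1 else 0) +
          ((if i = p v then (if baseAuxK b false t t' < 0 then 1 else 0) else 0) +
            if i = q v then (if baseAuxK b true t t' < 0 then 1 else 0) else 0) := by
      intro t' i
      by_cases h1 : i = p v
      · simp only [h1, hDp, hneg, H.meet, lt_irrefl, if_false, if_true, hpq v, zero_add, add_zero]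
      by_cases h2 : i = q v
      · simp only [h2, hDq, hneg, hq0, lt_irrefl, if_false, if_true, (hpq v).symm, zero_add]
      simp only [h1, h2, if_false, add_zero,
        (hsg (v, t, b) (Sum.inl (i, t')) (H.ne v i h1 h2)).2, D0, Sum.elim_inl]
    have k2 : ∀ w, (if D' (v, t, b) (Sum.inr w) < 0 then 1 else 0) =
        if baseAuxA σ c p q tm v w (1 / 2) < 0 then 1 else 0 := by
      intro w
      by_cases h1 : w = v
      · simp only [h1, hDr, hA0]
      simp only [(hsg (v, t, b) (Sum.inr w) (hhalf v w h1)).2, D0, Sum.elim_inr]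
    simp only [k1, k2, sum_add_distrib, H.cnt, H.cnt2, sum_ite_eq', mem_univ, if_true]
    rw [← sum_add_distrib, baseAux_K_sum]
    simp
  · rintro ⟨v, t, b⟩ ⟨w, t', b'⟩ hw
    rw [← hA']
    by_cases h1 : w = v
    · subst h1
      have k1 : baseAuxK b b' t t' ≠ 0 := baseAux_K_ne fun e => hw (by rw [e.1, e.2])
      have k2 : ∀ l, 2 * l0 ≤ l → l ≤ 1 - 2 * l0 → 0 < (if b' then l else 1 - l) := by
        intro l ha hb
        cases b' <;> simp only [if_true, Bool.false_eq_true, if_false] <;> linarith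
      simp only [hsib]
      exact (lt_or_gt_of_ne k1).imp
        (fun k l ha hb => mul_neg_of_pos_of_neg (k2 l ha hb) (mul_neg_of_pos_of_neg hη k))
        fun k l ha hb => mul_pos (k2 l ha hb) (mul_pos hη k)
    · exact (H.sep v w h1).imp (hsN v t b w t' b') (hsP v t b w t' b')
  · rintro ⟨v, t, b⟩
    rw [← hA']
    have k1 : ∀ w t' b', (if A' (v, t, b) (w, t', b') (1 / 2) < 0 then 1 else 0) =
        (if baseAuxA σ c p q tm v w (1 / 2) < 0 then 1 else 0) +
          if w = v then (if baseAuxK b b' t t' < 0 then 1 else 0) else 0 := by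
      intro w t' b'
      by_cases h1 : w = v
      · have k2 : (if b' then (1 / 2 : ℝ) else 1 - 1 / 2) * (η * baseAuxK b b' t t') < 0 ↔
            baseAuxK b b' t t' < 0 := by
          rw [← hneg (baseAuxK b b' t t')]
          cases b' <;> simp only [if_true, Bool.false_eq_true, if_false] <;> constructor <;>
            intro <;> linarith
        simp only [h1, hsib, hA0, lt_irrefl, if_false, if_true, zero_add, k2]
      · have k2 : A' (v, t, b) (w, t', b') (1 / 2) < 0 ↔ baseAuxA σ c p q tm v w (1 / 2) < 0 :=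
          (H.sep v w h1).elim
            (fun k => iff_of_true (hsN v t b w t' b' k _ (by linarith) (by linarith))
              (k _ (by linarith) (by linarith)))
            fun k => iff_of_false (hsP v t b w t' b' k _ (by linarith) (by linarith)).not_gt
              (k _ (by linarith) (by linarith)).not_gt
        simp only [h1, if_false, add_zero, k2]
    rw [Fintype.sum_prod_type_right, Fintype.sum_prod_type]
    simp only [k1, sum_add_distrib, H.cnt2, sum_ite_eq', mem_univ, if_true, Fintype.sum_bool]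
    rw [← sum_add_distrib (f := fun t' => if baseAuxK b true t t' < 0 then 1 else 0),
      sum_congr rfl fun t' _ => add_comm _ _, baseAux_K_sum]
    simp
    ring

theorem baseAux_iter (r : ℕ) : ∀ l0 : ℝ, 0 < l0 → l0 ≤ 1 / 2 →
    ∃ (ι W : Type) (_ : Fintype ι) (_ : Fintype W) (σ c : ι → ℝ) (p q : W → ι) (tm : W → ℝ)
      (g : ℝ) (β γ : ℕ), BaseAuxNC σ c p q tm g l0 β γ ∧ Fintype.card W = 256 ^ r ∧
      128 * Fintype.card ι ≤ 128 ^ r * (256 + 2 ^ r) := by
  induction r with
  | zero =>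
    intro l0 _ _
    refine ⟨Bool, Unit, inferInstance, inferInstance, fun b => if b then 1 else 0, fun _ => 0,
      fun _ => false, fun _ => true, fun _ => 0, 1, 0, 0, ⟨one_pos, by simp, by simp [baseAuxD],
        ?_, by simp [baseAuxD], fun v w h => absurd rfl h, by simp [baseAuxA, baseAuxD]⟩,
      by simp, by simp⟩
    intro v i h1 h2
    cases i
    · exact absurd rfl h1
    · exact absurd rfl h2
  | succ r ih =>
    intro l0 h0 h1
    obtain ⟨ι, W, _, _, σ, c, p, q, tm, g, β, γ, H, hW, hι⟩ := ih (l0 / 2) (half_pos h0)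
      (by linarith)
    obtain ⟨σ', c', tm', H'⟩ := baseAux_step H (half_pos h0) (by linarith) 128
    rw [mul_div_cancel₀ _ two_ne_zero] at H'
    refine ⟨_, _, _, _, σ', c', _, _, tm', _, _, _, H', ?_, ?_⟩
    · simp only [Fintype.card_prod, Fintype.card_fin, Fintype.card_bool, hW, pow_succ]
    · simp only [Fintype.card_sum, Fintype.card_prod, Fintype.card_fin, hW, pow_succ]
      have : 256 ^ r = 128 ^ r * 2 ^ r := mul_pow 128 2 r
      rw [this]
      nlinarith

theorem exists_base : ∃ (ι W : Type) (_ : Fintype ι) (_ : Fintype W) (G β : ℕ) (X : Dat ι W G),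
    X.Q β ∧ 1 ≤ Fintype.card ι ∧ 1 ≤ G ∧ 12 * Fintype.card ι ≤ Fintype.card W := by
  obtain ⟨ι, W, _, _, σ, c, p, q, tm, g, β, γ, H, hW, hι⟩ := baseAux_iter 6 (1 / 4) (by norm_num)
    (by norm_num)
  obtain ⟨σ', c', tm', H'⟩ := baseAux_step H (by norm_num) le_rfl 128
  let X : Dat ((ι × Fin 128) ⊕ W) (W × Fin 128) (Fintype.card (W × Fin 128)) :=
    { σ := σ'
      c := c'
      δ := fun _ => g / 2
      fl := fun i => i.isLeft = true
      lo := fun w => Sum.inr w.1
      hi := fun w => Sum.inl (q w.1, w.2)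
      tm := fun w => tm' (w.1, w.2, true)
      ix := Fintype.equivFin _ }
  refine ⟨_, _, inferInstance, inferInstance, _, 128 * β + 128 + γ, X,
    ⟨fun _ => H'.g_pos, fun _ => rfl, fun _ => Bool.false_ne_true, fun w => H'.gap (w.1, w.2, true),
      fun w => H'.meet (w.1, w.2, true), fun v => H'.ne (v.1, v.2, true), fun v => ?_,
      fun w w' _ e => (Fintype.equivFin _).injective e, fun w w' e e' => ?_⟩, ?_, ?_, ?_⟩
  · rw [card_filter]
    exact H'.cnt (v.1, v.2, true)
  · have e1 : (q w.1, w.2) = (q w'.1, w'.2) := Sum.inl_injective e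
    exact Prod.ext (Sum.inr_injective e') (congrArg Prod.snd e1 :)
  · simp only [Fintype.card_sum, hW]
    omega
  · simp only [Fintype.card_prod, Fintype.card_fin, hW]
    omega
  · simp only [Fintype.card_sum, Fintype.card_prod, Fintype.card_fin, hW]
    omega

theorem exists_par (K : ℕ) : ∃ X : Dat (Fin K × Bool) (Fin K) 1, X.Q 0 := by
  let n : Fin K × Bool → ℤ := fun i => if i.2 then 2 * (i.1 : ℕ) else 2 * (i.1 : ℕ) + 1
  let X : Dat (Fin K × Bool) (Fin K) 1 :=
    { σ := fun i => -2 * (n i : ℝ)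
      c := fun i => (n i : ℝ) ^ 2
      δ := fun _ => 2
      fl := fun i => i.2 = true
      lo := fun t => (t, false)
      hi := fun t => (t, true)
      tm := fun t => 2 * (t : ℕ) + 1 / 2
      ix := fun _ => 0 }
  have hD : ∀ v i, X.D v i = (((2 * (v : ℕ) - n i) * (2 * (v : ℕ) - n i + 1) : ℤ) : ℝ) := by
    intro v i
    simp only [Dat.D, X]
    have : n (v, true) = 2 * (v : ℕ) := rfl
    rw [this]
    push_cast
    ring
  have hz : ∀ j : ℤ, 0 ≤ j * (j + 1) := fun j => by
    rcases le_or_gt 0 j with h | h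
    · positivity
    · exact mul_nonneg_of_nonpos_of_nonpos h.le (by omega)
  refine ⟨X, fun _ => two_pos, fun _ => rfl, fun _ => Bool.false_ne_true, fun w => ?_,
    fun w => ?_, ?_, fun v => ?_, fun w w' e _ => congrArg Prod.fst e,
    fun w w' e _ => congrArg Prod.fst e⟩
  · simp only [X, n, if_true, Bool.false_eq_true, if_false]
    push_cast
    ring
  · rw [hD]
    simp [X, n]
  · rintro v ⟨t, b⟩ h1 h2
    rw [hD, Int.cast_ne_zero]
    have h3 : (t : ℕ) ≠ v := by
      intro e
      obtain rfl := Fin.ext e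
      cases b
      · exact h1 rfl
      · exact h2 rfl
    cases b <;> simp only [n, if_true, Bool.false_eq_true, if_false] <;>
      exact mul_ne_zero (by omega) (by omega)
  · rw [card_eq_zero, filter_eq_empty_iff]
    intro i _
    rw [hD, not_lt]
    exact_mod_cast hz _

end Vale.Agent.P065
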