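import Mathlib

/-! P065: families of lines `θ ↦ σ i * θ + c i` with marked crossings (slots). -/

namespace Vale.Agent.P065

open Classical

/-- Lines indexed by `ι`; the slot `w` is the crossing of the lines `lo w`, `hi w` at time `tm w`. -/
structure Dat (ι W : Type) (G : ℕ) where
  σ : ι → ℝ
  c : ι → ℝ
  δ : ι → ℝ
  fl : ι → Prop
  lo : W → ι
  hi : W → ι
  tm : W → ℝ
  ix : W → Fin G

variable {ι W : Type} {G : ℕ}

/-- the height of the line `i` over the slot `v` -/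
def Dat.D (X : Dat ι W G) (v : W) (i : ι) : ℝ :=
  (X.σ i - X.σ (X.hi v)) * X.tm v + (X.c i - X.c (X.hi v))

/-- every slot has exactly `β` lines below it and only its two lines through it -/
structure Dat.Q [Fintype ι] (X : Dat ι W G) (β : ℕ) : Prop where
  δ_pos : ∀ i, 0 < X.δ i
  fl_hi : ∀ w, X.fl (X.hi w)
  fl_lo : ∀ w, ¬ X.fl (X.lo w)
  gap : ∀ w, X.σ (X.hi w) = X.σ (X.lo w) + X.δ (X.lo w)
  meet : ∀ w, X.D w (X.lo w) = 0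
  ne : ∀ v i, i ≠ X.lo v → i ≠ X.hi v → X.D v i ≠ 0
  cnt : ∀ v, (Finset.univ.filter fun i => X.D v i < 0).card = β
  ix_inj : ∀ w w', X.hi w = X.hi w' → X.ix w = X.ix w' → w = w'
  inj : ∀ w w', X.hi w = X.hi w' → X.lo w = X.lo w' → w = w'

/-- margins with time unit `τ`, slope unit `ε` and size `Z` -/
structure Dat.M (X : Dat ι W G) (τ ε Z : ℝ) : Prop where
  mar : ∀ v i, i ≠ X.lo v → i ≠ X.hi v → τ * (|X.σ i - X.σ (X.hi v)| + X.δ i) ≤ |X.D v i|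
  cone : ∀ v w, X.hi w ≠ X.hi v → ε * |X.tm v - X.tm w| ≤ |X.D v (X.hi w)|
  δ_ge : ∀ i, ε ≤ X.δ i
  δ_le : ∀ i, X.δ i ≤ Z * ε
  σ_le : ∀ i, |X.σ i| ≤ Z * ε
  tm_le : ∀ w, |X.tm w| ≤ Z * τ
  c_le : ∀ i, |X.c i| ≤ Z * ε * τ

/-- integer slopes, margin one and size `m` -/
structure Dat.I (X : Dat ι W G) (m : ℕ) : Prop where
  σ_int : ∀ i, ∃ s : ℤ, X.σ i = s
  δ_int : ∀ i, ∃ s : ℤ, X.δ i = s
  mar : ∀ v i, i ≠ X.lo v → i ≠ X.hi v → |X.σ i - X.σ (X.hi v)| + X.δ i ≤ |X.D v i|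
  σ_le : ∀ i, |X.σ i| ≤ m
  σδ_le : ∀ i, |X.σ i + X.δ i| ≤ m
  tm_le : ∀ w, |X.tm w| ≤ m
  c_le : ∀ i, |X.c i| ≤ m

@[simp] theorem Dat.D_hi (X : Dat ι W G) (v : W) : X.D v (X.hi v) = 0 := by
  simp [Dat.D]

theorem Dat.M.mono {X : Dat ι W G} {τ ε Z Z' : ℝ} (h : X.M τ ε Z) (hτ : 0 < τ) (hε : 0 < ε)
    (hZ : Z ≤ Z') : X.M τ ε Z' :=
  ⟨h.mar, h.cone, h.δ_ge, fun i => (h.δ_le i).trans (by gcongr),
    fun i => (h.σ_le i).trans (by gcongr), fun i => (h.tm_le i).trans (by gcongr),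
    fun i => (h.c_le i).trans (by gcongr)⟩

end Vale.Agent.P065
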