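import Mathlib

/-! P065: point sets in the plane, `k`-sets and halving lines. -/

namespace Vale.Agent.P065

open Classical

/-- no three points of `P` are collinear -/
def GenPos (P : Finset (ℝ × ℝ)) : Prop :=
  ∀ p ∈ P, ∀ q ∈ P, ∀ r ∈ P, p ≠ q → p ≠ r → q ≠ r → ¬ Collinear ℝ ({p, q, r} : Set (ℝ × ℝ))

/-- `S` lies in one open halfplane of a line `a x + b y = c` and `P \ S` in the other -/
def Separable (P S : Finset (ℝ × ℝ)) : Prop :=
  ∃ a b c : ℝ, (a ≠ 0 ∨ b ≠ 0) ∧ (∀ p ∈ S, a * p.1 + b * p.2 < c) ∧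
    ∀ p ∈ P, p ∉ S → c < a * p.1 + b * p.2

/-- the number of `k`-sets of `P` -/
noncomputable def kSets (P : Finset (ℝ × ℝ)) (k : ℕ) : ℕ :=
  ((P.powersetCard k).filter fun S => Separable P S).card

/-- the points of `S` lie on a line `a x + b y = c` that has exactly `(|P| - 2) / 2` points of `P`
in each of its open halfplanes -/
def Halving (P S : Finset (ℝ × ℝ)) : Prop :=
  ∃ a b c : ℝ, (a ≠ 0 ∨ b ≠ 0) ∧ (∀ p ∈ S, a * p.1 + b * p.2 = c) ∧
    (P.filter fun p => a * p.1 + b * p.2 < c).card = (P.card - 2) / 2 ∧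
    (P.filter fun p => c < a * p.1 + b * p.2).card = (P.card - 2) / 2

/-- the number of unordered pairs of points of `P` spanning a halving line -/
noncomputable def halvingLines (P : Finset (ℝ × ℝ)) : ℕ :=
  ((P.powersetCard 2).filter fun S => Halving P S).card

end Vale.Agent.P065
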