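import Mathlib

/-! P065: the choice of the height of the tower. -/

namespace Vale.Agent.P065

theorem growthAux_main (C t : ℕ) (ht : 2 ≤ t) (x : ℝ) (h1 : 2 ^ 2 ^ (t ^ 2) ≤ x)
    (h2 : x ≤ 2 ^ 2 ^ (t ^ 2 + ((C + 2) * t + C + 2))) :
    8 * x ^ Real.exp (-(2 * (2 * C + 5)) * Real.sqrt (Real.log (Real.log x))) ≤
      2 ^ 2 ^ (t ^ 2) := by
  have hl : (1 / 2 : ℝ) ≤ Real.log 2 := by linarith [Real.log_two_gt_d9]
  have hl1 : Real.log 2 ≤ 1 := by linarith [Real.log_two_lt_d9]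
  have hx : 0 < x := lt_of_lt_of_le (by positivity) h1
  have htR : (2 : ℝ) ≤ t := by exact_mod_cast ht
  have hC : (0 : ℝ) ≤ C := Nat.cast_nonneg C
  set A : ℝ := 2 ^ (t ^ 2) with hA
  set m : ℕ := (C + 2) * t + C + 2 with hm
  have hA16 : 16 ≤ A := by
    calc (16 : ℝ) = 2 ^ (2 ^ 2) := by norm_num
      _ ≤ A := pow_le_pow_right₀ (by norm_num) (Nat.pow_le_pow_left ht 2)
  have e1 : A * Real.log 2 ≤ Real.log x := by
    have := Real.log_le_log (by positivity) h1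
    rwa [Real.log_pow, Nat.cast_pow, Nat.cast_ofNat] at this
  have e2 : Real.log x ≤ A * 2 ^ m * Real.log 2 := by
    have := Real.log_le_log hx h2
    rwa [Real.log_pow, Nat.cast_pow, Nat.cast_ofNat, pow_add] at this
  have e3 : ((t : ℝ) / 2) ^ 2 ≤ Real.log (Real.log x) := by
    have a1 : A / 2 ≤ Real.log x := by nlinarith
    have a2 := Real.log_le_log (by positivity) a1
    rw [Real.log_div (by positivity) (by norm_num), hA, Real.log_pow, Nat.cast_pow] at a2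
    have a3 : (4 : ℝ) ≤ (t : ℝ) ^ 2 := by nlinarith
    nlinarith
  have e4 : (t : ℝ) / 2 ≤ Real.sqrt (Real.log (Real.log x)) := Real.le_sqrt_of_sq_le e3
  set E : ℝ := Real.exp (-(2 * (2 * C + 5)) * Real.sqrt (Real.log (Real.log x))) with hE
  have hE0 : 0 < E := Real.exp_pos _
  have e5 : E * 2 ^ (m + 1) ≤ 1 := by
    have a1 : (2 : ℝ) ^ (m + 1) = Real.exp ((m + 1 : ℕ) * Real.log 2) := by
      rw [Real.exp_nat_mul, Real.exp_log (by norm_num)]
    rw [a1, hE, ← Real.exp_add, Real.exp_le_one_iff]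
    have a2 : ((m + 1 : ℕ) : ℝ) * Real.log 2 ≤ (m + 1 : ℕ) :=
      mul_le_of_le_one_right (Nat.cast_nonneg _) hl1
    have a3 : ((m + 1 : ℕ) : ℝ) ≤ (2 * C + 5) * t := by
      rw [hm]; push_cast; nlinarith
    nlinarith
  have e6 : Real.log x * E ≤ A / 2 * Real.log 2 := by
    have a1 : E * 2 ^ m ≤ 1 / 2 := by rw [pow_succ] at e5; linarith
    calc Real.log x * E ≤ A * 2 ^ m * Real.log 2 * E := mul_le_mul_of_nonneg_right e2 hE0.le
      _ = A * Real.log 2 * (E * 2 ^ m) := by ring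
      _ ≤ A * Real.log 2 * (1 / 2) := mul_le_mul_of_nonneg_left a1 (by positivity)
      _ = _ := by ring
  have e7 : (2 : ℝ) ^ 2 ^ (t ^ 2) = Real.exp (A * Real.log 2) := by
    have := Real.exp_nat_mul (Real.log 2) (2 ^ (t ^ 2))
    rw [Real.exp_log (by norm_num), Nat.cast_pow, Nat.cast_ofNat] at this
    exact this.symm
  have e8 : (8 : ℝ) = Real.exp (3 * Real.log 2) := by
    have := Real.exp_nat_mul (Real.log 2) 3
    rw [Real.exp_log (by norm_num), Nat.cast_ofNat] at this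
    rw [this]; norm_num
  rw [e7, e8, Real.rpow_def_of_pos hx, ← Real.exp_add, Real.exp_le_exp]
  nlinarith

theorem growth (C : ℕ) : ∃ (C' : ℝ) (k₀ : ℕ), 0 < C' ∧ ∀ k : ℕ, k₀ ≤ k → ∃ t : ℕ, 1 ≤ t ∧
    2 ^ 2 ^ (t ^ 2 + C * t) ≤ k ∧
    8 * ((2 * k : ℕ) : ℝ) ^ Real.exp (-C' * Real.sqrt (Real.log (Real.log (2 * k : ℕ)))) ≤
      2 ^ 2 ^ (t ^ 2) ∧
    8 * (k : ℝ) ^ Real.exp (-C' * Real.sqrt (Real.log (Real.log k))) ≤ 2 ^ 2 ^ (t ^ 2) := by
  refine ⟨2 * (2 * C + 5), 2 ^ 2 ^ (2 ^ 2 + C * 2), by positivity, fun k hk => ?_⟩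
  have hex : ∃ s : ℕ, k < 2 ^ 2 ^ ((s + 3) ^ 2 + C * (s + 3)) := by
    refine ⟨k, Nat.lt_two_pow_self.trans_le (Nat.pow_le_pow_right (by norm_num)
      (Nat.lt_two_pow_self.le.trans (Nat.pow_le_pow_right (by norm_num) ?_)))⟩
    nlinarith [Nat.zero_le (C * (k + 3))]
  have hs := Nat.find_spec hex
  have hlow : 2 ^ 2 ^ ((Nat.find hex + 2) ^ 2 + C * (Nat.find hex + 2)) ≤ k := by
    rcases h : Nat.find hex with _ | s
    · exact hk
    · exact not_lt.1 (Nat.find_min hex (m := s) (by omega))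
  set t := Nat.find hex + 2 with ht
  have a1 : 2 ^ 2 ^ (t ^ 2) ≤ k := le_trans (Nat.pow_le_pow_right (by norm_num)
    (Nat.pow_le_pow_right (by norm_num) (Nat.le_add_right _ _))) hlow
  have a2 : 2 * k ≤ 2 ^ 2 ^ (t ^ 2 + ((C + 2) * t + C + 2)) := by
    have e : t ^ 2 + ((C + 2) * t + C + 2) =
        ((Nat.find hex + 3) ^ 2 + C * (Nat.find hex + 3)) + 1 := by rw [ht]; ring
    rw [e]
    generalize (Nat.find hex + 3) ^ 2 + C * (Nat.find hex + 3) = N at hs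
    calc 2 * k ≤ 2 ^ (2 ^ N + 1) := by rw [pow_succ]; omega
      _ ≤ _ := Nat.pow_le_pow_right (by norm_num) (by
        have := Nat.one_le_two_pow (n := N)
        rw [pow_succ]; omega)
  refine ⟨t, by omega, hlow, growthAux_main C t (by omega) _ ?_ ?_,
    growthAux_main C t (by omega) _ ?_ ?_⟩
  · exact_mod_cast a1.trans (by omega : k ≤ 2 * k)
  · exact_mod_cast a2
  · exact_mod_cast a1
  · exact_mod_cast (by omega : k ≤ 2 * k).trans a2

end Vale.Agent.P065
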