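import Vale.Agent.P065.Cfg

/-! P065: existence of margins, rescaling and rounding of the slopes. -/

namespace Vale.Agent.P065

open Classical

variable {ι W : Type} [Fintype ι] {G β : ℕ}

theorem normAux_small {κ : Type} [Finite κ] (a b : κ → ℝ) (hb : ∀ k, 0 < b k) :
    ∃ e : ℝ, 0 < e ∧ ∀ k, e * |a k| ≤ b k := by
  obtain ⟨M, hM⟩ := Finite.exists_le fun k => |a k| / b k
  refine ⟨1 / (|M| + 1), by positivity, fun k => ?_⟩
  have h1 := (div_le_iff₀ (hb k)).1 ((hM k).trans (le_abs_self M))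
  rw [div_mul_eq_mul_div, one_mul, div_le_iff₀ (by positivity)]
  nlinarith [hb k]

theorem normAux_big {κ : Type} [Finite κ] (a : κ → ℝ) {e : ℝ} (he : 0 < e) :
    ∃ Z : ℝ, ∀ Z', Z ≤ Z' → ∀ k, a k ≤ Z' * e := by
  obtain ⟨M, hM⟩ := Finite.exists_le fun k => a k / e
  exact ⟨M, fun Z' h k => (div_le_iff₀ he).1 ((hM k).trans h)⟩

theorem exists_M [Fintype W] {X : Dat ι W G} (h : X.Q β) :
    ∃ τ ε Z : ℝ, 0 < τ ∧ 0 < ε ∧ 1 ≤ Z ∧ X.M τ ε Z := by
  obtain ⟨τ, hτ, h1⟩ := normAux_small (κ := {p : W × ι // p.2 ≠ X.lo p.1 ∧ p.2 ≠ X.hi p.1})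
    (fun p => |X.σ p.1.2 - X.σ (X.hi p.1.1)| + X.δ p.1.2) (fun p => |X.D p.1.1 p.1.2|)
    fun p => abs_pos.2 (h.ne _ _ p.2.1 p.2.2)
  obtain ⟨e1, he1, h2⟩ := normAux_small (κ := {p : W × W // X.hi p.2 ≠ X.hi p.1})
    (fun p => X.tm p.1.1 - X.tm p.1.2) (fun p => |X.D p.1.1 (X.hi p.1.2)|)
    fun p => abs_pos.2 (h.ne _ _ (fun e => h.fl_lo _ (e ▸ h.fl_hi p.1.2)) p.2)
  obtain ⟨e2, he2, h3⟩ := normAux_small (fun _ : ι => (1 : ℝ)) X.δ h.δ_pos
  have hε : 0 < min e1 e2 := lt_min he1 he2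
  obtain ⟨Z1, z1⟩ := normAux_big X.δ hε
  obtain ⟨Z2, z2⟩ := normAux_big (fun i => |X.σ i|) hε
  obtain ⟨Z3, z3⟩ := normAux_big (fun w => |X.tm w|) hτ
  obtain ⟨Z4, z4⟩ := normAux_big (fun i => |X.c i|) (mul_pos hε hτ)
  refine ⟨τ, min e1 e2, max (max (max Z1 Z2) (max Z3 Z4)) 1, hτ, hε, le_max_right _ _,
    fun v i a b => ?_, fun v w a => ?_, fun i => ?_, z1 _ (by simp), z2 _ (by simp),
    z3 _ (by simp), fun i => ?_⟩
  · exact (mul_le_mul_of_nonneg_left (le_abs_self _) hτ.le).trans (h1 ⟨(v, i), a, b⟩)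
  · exact (mul_le_mul_of_nonneg_right (min_le_left _ _) (abs_nonneg _)).trans (h2 ⟨(v, w), a⟩)
  · have := h3 i
    rw [abs_one, mul_one] at this
    exact (min_le_right _ _).trans this
  · rw [mul_assoc]
    exact z4 _ (by simp) i

theorem rescale {X : Dat ι W G} {τ ε Z : ℝ} (h : X.Q β) (hM : X.M τ ε Z) (hτ : 0 < τ)
    (hε : 0 < ε) {τ' ε' : ℝ} (hτ' : 0 < τ') (hε' : 0 < ε') :
    ∃ X' : Dat ι W G, X'.Q β ∧ X'.M τ' ε' Z := by
  obtain ⟨l, hl, rfl⟩ : ∃ l, 0 < l ∧ τ' = l * τ := ⟨τ' / τ, by positivity, by field_simp⟩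
  obtain ⟨μ, hμ, rfl⟩ : ∃ l, 0 < l ∧ ε' = l * ε := ⟨ε' / ε, by positivity, by field_simp⟩
  let X' : Dat ι W G := ⟨fun i => μ * X.σ i, fun i => l * μ * X.c i, fun i => μ * X.δ i, X.fl,
    X.lo, X.hi, fun w => l * X.tm w, X.ix⟩
  have hp := mul_pos hl hμ
  have hD : ∀ v i, X'.D v i = l * μ * X.D v i := fun v i => by simp only [Dat.D, X']; ring
  have hA : ∀ v i, |X'.D v i| = l * μ * |X.D v i| := fun v i => by rw [hD, abs_mul, abs_of_pos hp]
  refine ⟨X', ⟨fun i => mul_pos hμ (h.δ_pos i), h.fl_hi, h.fl_lo, fun w => ?_, fun w => ?_,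
    fun v i a b => ?_, fun v => ?_, h.ix_inj, h.inj⟩, fun v i a b => ?_, fun v w a => ?_,
    fun i => ?_, fun i => ?_, fun i => ?_, fun i => ?_, fun i => ?_⟩
  · simp only [X', h.gap]; ring
  · rw [hD]; exact mul_eq_zero_of_right _ (h.meet w)
  · rw [hD]; exact mul_ne_zero hp.ne' (h.ne v i a b)
  · simp only [hD, mul_neg_iff, hp, hp.not_gt, true_and, false_and, or_false]
    exact h.cnt v
  · rw [hA]
    have := mul_le_mul_of_nonneg_left (hM.mar v i a b) hp.le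
    simp only [X', ← mul_sub, abs_mul, abs_of_pos hμ]
    linarith
  · rw [hA]
    have := mul_le_mul_of_nonneg_left (hM.cone v w a) hp.le
    simp only [X', ← mul_sub, abs_mul, abs_of_pos hl]
    linarith
  · exact mul_le_mul_of_nonneg_left (hM.δ_ge i) hμ.le
  · have := mul_le_mul_of_nonneg_left (hM.δ_le i) hμ.le
    simp only [X']
    linarith
  · have := mul_le_mul_of_nonneg_left (hM.σ_le i) hμ.le
    simp only [X', abs_mul, abs_of_pos hμ]
    linarith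
  · have := mul_le_mul_of_nonneg_left (hM.tm_le i) hl.le
    simp only [X', abs_mul, abs_of_pos hl]
    linarith
  · have := mul_le_mul_of_nonneg_left (hM.c_le i) hp.le
    simp only [X', abs_mul, abs_of_pos hl, abs_of_pos hμ]
    linarith

theorem normAux_floor (a b : ℝ) : |((⌊a⌋ : ℝ) - ⌊b⌋) - (a - b)| ≤ 1 := by
  have h1 := Int.floor_le a
  have h2 := Int.lt_floor_add_one a
  have h3 := Int.floor_le b
  have h4 := Int.lt_floor_add_one b
  rw [abs_le]
  constructor <;> linarith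

theorem normAux_abs_floor (a : ℝ) : |(⌊a⌋ : ℝ)| ≤ |a| + 1 := by
  have h1 := Int.floor_le a
  have h2 := Int.lt_floor_add_one a
  rw [abs_le]
  constructor <;> linarith [le_abs_self a, neg_abs_le a]

theorem round_slopes {X : Dat ι W G} {Z : ℝ} (h : X.Q β) (hM : X.M 1 1 Z) (hZ : 1 ≤ Z) {m : ℕ}
    (hm : 40 * Z ^ 2 ≤ m) : ∃ X' : Dat ι W G, X'.Q β ∧ X'.I m := by
  obtain ⟨K, hK⟩ : ∃ K : ℝ, K = 16 * Z := ⟨_, rfl⟩
  have hK0 : 16 ≤ K := by linarith
  let d : ι → ℝ := fun i => (⌊K * (X.σ i + X.δ i)⌋ : ℝ) - ⌊K * X.σ i⌋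
  have hd : ∀ i, |d i - K * X.δ i| ≤ 1 := fun i => by
    have := normAux_floor (K * (X.σ i + X.δ i)) (K * X.σ i)
    rwa [show K * (X.σ i + X.δ i) - K * X.σ i = K * X.δ i by ring] at this
  have hd1 : ∀ i, 15 * Z ≤ d i := fun i => by
    have h1 := (abs_le.1 (hd i)).1
    have h2 := hM.δ_ge i
    nlinarith
  have hd0 : ∀ i, 0 < d i := fun i => by linarith [hd1 i]
  let t : W → ℝ := fun w => K * X.δ (X.lo w) * X.tm w / d (X.lo w)
  have ht : ∀ w, |t w - X.tm w| ≤ 1 / 15 := fun w => by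
    have e : t w - X.tm w = -((d (X.lo w) - K * X.δ (X.lo w)) * X.tm w) / d (X.lo w) := by
      have := (hd0 (X.lo w)).ne'
      simp only [t]
      field_simp
      ring
    rw [e, abs_div, abs_neg, abs_mul, abs_of_pos (hd0 _), div_le_iff₀ (hd0 _)]
    have h1 := hM.tm_le w
    have h2 := mul_le_mul (hd (X.lo w)) h1 (abs_nonneg _) zero_le_one
    linarith [hd1 (X.lo w)]
  have ht1 : ∀ w, |t w| ≤ Z + 1 / 15 := fun w => by
    have h1 := hM.tm_le w
    have h2 := abs_add_le (t w - X.tm w) (X.tm w)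
    rw [sub_add_cancel] at h2
    linarith [ht w]
  let X' : Dat ι W G := ⟨fun i => ⌊K * X.σ i⌋, fun i => 2 * K * X.c i, d, X.fl, X.lo, X.hi,
    fun w => 2 * t w, X.ix⟩
  have hgap : ∀ w, X'.σ (X'.hi w) = X'.σ (X'.lo w) + X'.δ (X'.lo w) := fun w => by
    simp only [X', d, h.gap]; ring
  have hmeet : ∀ w, X'.D w (X'.lo w) = 0 := fun w => by
    have h1 := h.meet w
    have h2 := (hd0 (X.lo w)).ne'
    have h3 : d (X.lo w) * t w = K * X.δ (X.lo w) * X.tm w := by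
      simp only [t]; field_simp
    unfold Dat.D at h1 ⊢
    rw [hgap]
    rw [h.gap] at h1
    simp only [X']
    linear_combination 2 * K * h1 - 2 * h3
  have hD : ∀ v i, i ≠ X.lo v → i ≠ X.hi v →
      |X'.D v i - 2 * K * X.D v i| ≤ 2 * K * |X.D v i| / 15 := fun v i a b => by
    have h1 := normAux_floor (K * X.σ i) (K * X.σ (X.hi v))
    have e : X'.D v i - 2 * K * X.D v i = 2 * ((((⌊K * X.σ i⌋ : ℝ) - ⌊K * X.σ (X.hi v)⌋) -
        (K * X.σ i - K * X.σ (X.hi v))) * t v +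
        K * ((X.σ i - X.σ (X.hi v)) * (t v - X.tm v))) := by
      simp only [Dat.D, X']; ring
    have h2 := mul_le_mul h1 (ht1 v) (abs_nonneg _) zero_le_one
    have h3 := mul_le_mul_of_nonneg_left
      (mul_le_mul_of_nonneg_left (ht v) (abs_nonneg (X.σ i - X.σ (X.hi v)))) (by linarith : 0 ≤ K)
    have h4 := hM.mar v i a b
    have h5 := hM.δ_ge i
    have h6 := mul_le_mul_of_nonneg_left
      (by linarith : |X.σ i - X.σ (X.hi v)| + 1 ≤ |X.D v i|) (by linarith : 0 ≤ K)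
    rw [e, abs_mul, abs_two]
    have h7 := abs_add_le ((((⌊K * X.σ i⌋ : ℝ) - ⌊K * X.σ (X.hi v)⌋) -
        (K * X.σ i - K * X.σ (X.hi v))) * t v) (K * ((X.σ i - X.σ (X.hi v)) * (t v - X.tm v)))
    rw [abs_mul, abs_mul, abs_mul, abs_of_pos (by linarith : 0 < K)] at h7
    linarith
  have hmar : ∀ v i, i ≠ X.lo v → i ≠ X.hi v →
      |X'.σ i - X'.σ (X'.hi v)| + X'.δ i ≤ |X'.D v i| := fun v i a b => by
    have h1 := normAux_floor (K * X.σ i) (K * X.σ (X.hi v))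
    have h2 := abs_sub_abs_le_abs_sub (X'.σ i - X'.σ (X'.hi v)) (K * X.σ i - K * X.σ (X.hi v))
    rw [← mul_sub, abs_mul, abs_of_pos (by linarith : 0 < K)] at h2
    rw [← mul_sub] at h1
    have h3 := (abs_le.1 (hd i)).2
    have h4 := hM.mar v i a b
    have h5 := hM.δ_ge i
    have h6 := mul_le_mul_of_nonneg_left h4 (by linarith : 0 ≤ K)
    have h7 := abs_sub_abs_le_abs_sub (2 * K * X.D v i) (X'.D v i)
    rw [abs_sub_comm, abs_mul, abs_of_pos (by linarith : 0 < 2 * K)] at h7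
    have h8 := hD v i a b
    have h9 : 16 * 1 ≤ K * |X.D v i| := mul_le_mul hK0
      (by linarith [abs_nonneg (X.σ i - X.σ (X.hi v))]) zero_le_one (by linarith)
    change |X'.σ i - X'.σ (X'.hi v) - K * (X.σ i - X.σ (X.hi v))| ≤ 1 at h1
    change _ + d i ≤ _
    linarith
  have hZ2 : Z ≤ Z ^ 2 := by nlinarith
  refine ⟨X', ⟨hd0, h.fl_hi, h.fl_lo, hgap, hmeet, fun v i a b => ?_, fun v => ?_, h.ix_inj,
    h.inj⟩, fun i => ⟨_, rfl⟩, fun i => ⟨⌊K * (X.σ i + X.δ i)⌋ - ⌊K * X.σ i⌋, by simp [X', d]⟩,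
    hmar, fun i => ?_, fun i => ?_, fun w => ?_, fun i => ?_⟩
  · exact abs_pos.1 ((add_pos_of_nonneg_of_pos (abs_nonneg _) (hd0 i)).trans_le (hmar v i a b))
  · rw [← h.cnt v]
    refine congrArg Finset.card (Finset.filter_congr fun i _ => ?_)
    by_cases a : i = X.lo v
    · rw [a, h.meet]
      exact iff_of_false (by rw [show X.lo v = X'.lo v from rfl, hmeet]; simp) (by simp)
    by_cases b : i = X.hi v
    · rw [b, X.D_hi]
      exact iff_of_false (by rw [show X.hi v = X'.hi v from rfl, X'.D_hi]; simp) (by simp)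
    have h1 := abs_le.1 (hD v i a b)
    rcases lt_or_gt_of_ne (h.ne v i a b) with h2 | h2
    · rw [abs_of_neg h2] at h1
      exact iff_of_true (by nlinarith [h1.2]) h2
    · rw [abs_of_pos h2] at h1
      exact iff_of_false (by nlinarith [h1.1]) h2.not_gt
  · refine (normAux_abs_floor _).trans ?_
    have := mul_le_mul_of_nonneg_left (hM.σ_le i) (by linarith : 0 ≤ K)
    rw [abs_mul, abs_of_pos (by linarith : 0 < K)]
    nlinarith
  · simp only [X', d, add_sub_cancel]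
    refine (normAux_abs_floor _).trans ?_
    have h1 := abs_add_le (X.σ i) (X.δ i)
    rw [abs_of_pos (h.δ_pos i)] at h1
    have h2 := mul_le_mul_of_nonneg_left
      (by linarith [hM.σ_le i, hM.δ_le i] : |X.σ i + X.δ i| ≤ 2 * Z) (by linarith : 0 ≤ K)
    rw [abs_mul, abs_of_pos (by linarith : 0 < K)]
    nlinarith
  · simp only [X', abs_mul, abs_two]
    linarith [ht1 w]
  · have := mul_le_mul_of_nonneg_left (hM.c_le i) (by linarith : 0 ≤ K)
    simp only [X', abs_mul, abs_two, abs_of_pos (by linarith : 0 < K)]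
    nlinarith

end Vale.Agent.P065
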