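import Vale.Agent.P065.Defs
import Vale.Agent.P065.Cfg

/-! P065: from lines with slots to point sets in general position. -/

namespace Vale.Agent.P065

open Classical Finset Filter Topology

/-- the orientation determinant of three points -/
def pointsAuxDt {ι : Type} (s c : ι → ℝ) (a b i : ι) : ℝ :=
  (s b - s a) * (c i - c a) - (c b - c a) * (s i - s a)

/-- the combinatorial data in terms of points -/
structure PointsAuxR {ι W : Type} [Fintype ι] (s c : ι → ℝ) (lo hi : W → ι) (β : ℕ) : Prop where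
  gap : ∀ w, s (lo w) < s (hi w)
  ne : ∀ v i, i ≠ lo v → i ≠ hi v → pointsAuxDt s c (lo v) (hi v) i ≠ 0
  cnt : ∀ v, (univ.filter fun i => pointsAuxDt s c (lo v) (hi v) i < 0).card = β

theorem pointsAux_neg {a b : ℝ} (ha : 0 < a) : a * b < 0 ↔ b < 0 :=
  ⟨fun h => by by_contra hb; nlinarith [mul_nonneg ha.le (not_lt.1 hb)], mul_neg_of_pos_of_neg ha⟩

theorem pointsAux_ext {ι W : Type} [Fintype ι] [Fintype W] {G β : ℕ} {X : Dat ι W G} (h : X.Q β)
    (x y : ℕ) : ∃ X' : Dat (ι ⊕ Fin x ⊕ Fin y) W G, X'.Q (β + x) := by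
  obtain ⟨M, hM⟩ : ∃ M : ℝ, ∀ v, |X.σ (X.hi v) * X.tm v + X.c (X.hi v)| < M := by
    obtain ⟨M, hM⟩ := (Set.finite_range fun v => |X.σ (X.hi v) * X.tm v + X.c (X.hi v)|).bddAbove
    exact ⟨M + 1, fun v => (hM ⟨v, rfl⟩).trans_lt (lt_add_one M)⟩
  let X' : Dat (ι ⊕ Fin x ⊕ Fin y) W G :=
    { σ := Sum.elim X.σ fun _ => 0
      c := Sum.elim X.c (Sum.elim (fun _ => -M) fun _ => M)
      δ := Sum.elim X.δ fun _ => 1
      fl := Sum.elim X.fl fun _ => False
      lo := fun w => Sum.inl (X.lo w)
      hi := fun w => Sum.inl (X.hi w)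
      tm := X.tm
      ix := X.ix }
  have h1 : ∀ v i, X'.D v (Sum.inl i) = X.D v i := fun _ _ => rfl
  have h2 : ∀ v i, X'.D v (Sum.inr (Sum.inl i)) < 0 := by
    intro v i
    have := (abs_lt.1 (hM v)).1
    change (0 - X.σ (X.hi v)) * X.tm v + (-M - X.c (X.hi v)) < 0
    linarith
  have h3 : ∀ v i, 0 < X'.D v (Sum.inr (Sum.inr i)) := by
    intro v i
    have := (abs_lt.1 (hM v)).2
    change 0 < (0 - X.σ (X.hi v)) * X.tm v + (M - X.c (X.hi v))
    linarith
  refine ⟨X', ⟨?_, h.fl_hi, h.fl_lo, h.gap, h.meet, ?_, fun v => ?_,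
    fun w w' e => h.ix_inj w w' (Sum.inl_injective e),
    fun w w' e e' => h.inj w w' (Sum.inl_injective e) (Sum.inl_injective e')⟩⟩
  · rintro (i | i)
    · exact h.δ_pos i
    · exact one_pos
  · rintro v (i | i | i) ha hb
    · exact h.ne v i (fun e => ha (congrArg Sum.inl e)) fun e => hb (congrArg Sum.inl e)
    · exact (h2 v i).ne
    · exact (h3 v i).ne'
  · rw [← h.cnt v, card_filter, card_filter, Fintype.sum_sum_type, Fintype.sum_sum_type]
    simp only [h1, h2, (h3 v _).not_gt, if_true, if_false]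
    simp

theorem pointsAux_R {ι W : Type} [Fintype ι] {G β : ℕ} {X : Dat ι W G} (h : X.Q β) :
    PointsAuxR X.σ X.c X.lo X.hi β := by
  have h1 : ∀ v i, pointsAuxDt X.σ X.c (X.lo v) (X.hi v) i = X.δ (X.lo v) * X.D v i := by
    intro v i
    have h2 := h.meet v
    have h3 := h.gap v
    simp only [Dat.D, pointsAuxDt] at h2 ⊢
    have h4 : X.δ (X.lo v) = X.σ (X.hi v) - X.σ (X.lo v) := by linarith
    rw [h4]
    linear_combination (X.σ i - X.σ (X.hi v)) * h2
  refine ⟨fun w => by linarith [h.gap w, h.δ_pos (X.lo w)], fun v i ha hb => ?_, fun v => ?_⟩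
  · rw [h1]
    exact mul_ne_zero (h.δ_pos _).ne' (h.ne v i ha hb)
  · rw [← h.cnt v]
    congr 1
    refine filter_congr fun i _ => ?_
    rw [h1, pointsAux_neg (h.δ_pos _)]

theorem pointsAux_quad (A B C : ℝ) (hC : C ≠ 0) :
    ∀ᶠ e in 𝓝[≠] (0 : ℝ), A + B * e + C * e ^ 2 ≠ 0 := by
  by_cases hA : A = 0
  · by_cases hB : B = 0
    · filter_upwards [self_mem_nhdsWithin] with e he
      rw [hA, hB]
      simpa [hC] using he
    · have h1 : ∀ᶠ e in 𝓝 (0 : ℝ), B + C * e ≠ 0 :=
        (by fun_prop : ContinuousAt (fun e : ℝ => B + C * e) 0).eventually_ne (by simpa using hB)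
      filter_upwards [self_mem_nhdsWithin, nhdsWithin_le_nhds h1] with e he h2
      have h3 : A + B * e + C * e ^ 2 = e * (B + C * e) := by rw [hA]; ring
      rw [h3]
      exact mul_ne_zero he h2
  · exact nhdsWithin_le_nhds
      ((by fun_prop : ContinuousAt (fun e : ℝ => A + B * e + C * e ^ 2) 0).eventually_ne
        (by simpa using hA))

theorem pointsAux_sign {f : ℝ → ℝ} (hf : ContinuousAt f 0) (h0 : f 0 ≠ 0) :
    ∀ᶠ e in 𝓝 (0 : ℝ), f e ≠ 0 ∧ (f e < 0 ↔ f 0 < 0) := by
  rcases lt_or_gt_of_ne h0 with h | h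
  · filter_upwards [hf.eventually_lt continuousAt_const h] with e he
    exact ⟨he.ne, iff_of_true he h⟩
  · filter_upwards [continuousAt_const.eventually_lt hf h] with e he
    exact ⟨he.ne', iff_of_false he.not_gt h.not_gt⟩

theorem pointsAux_perturb {ι W : Type} [Fintype ι] [Fintype W] {s c : ι → ℝ} {lo hi : W → ι}
    {β : ℕ} (h : PointsAuxR s c lo hi β) :
    ∃ s' c' : ι → ℝ, PointsAuxR s' c' lo hi β ∧ Function.Injective s' ∧
      ∀ i j l, i ≠ j → i ≠ l → j ≠ l → pointsAuxDt s' c' i j l ≠ 0 := by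
  obtain ⟨m, hm⟩ : ∃ m : ι → ℝ, Function.Injective m :=
    ⟨fun i => ((Fintype.equivFin ι i : ℕ) : ℝ), fun i j e =>
      (Fintype.equivFin ι).injective (Fin.ext (Nat.cast_injective e))⟩
  let S : ℝ → ι → ℝ := fun e i => s i + e * m i
  let C : ℝ → ι → ℝ := fun e i => c i + e * m i ^ 2
  have h1 : ∀ᶠ e in 𝓝[≠] (0 : ℝ), ∀ i j, i ≠ j → S e i ≠ S e j := by
    simp only [eventually_all]
    intro i j hij
    filter_upwards [pointsAux_quad 0 (s i - s j) (m i - m j) (sub_ne_zero.2 (hm.ne hij))]
      with e he h2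
    refine he ?_
    simp only [S] at h2
    linear_combination e * h2
  have h2 : ∀ᶠ e in 𝓝[≠] (0 : ℝ), ∀ i j l, i ≠ j → i ≠ l → j ≠ l →
      pointsAuxDt (S e) (C e) i j l ≠ 0 := by
    simp only [eventually_all]
    intro i j l hij hil hjl
    filter_upwards [pointsAux_quad (pointsAuxDt s c i j l)
      ((s j - s i) * (m l ^ 2 - m i ^ 2) + (m j - m i) * (c l - c i) -
        ((c j - c i) * (m l - m i) + (m j ^ 2 - m i ^ 2) * (s l - s i)))
      ((m j - m i) * (m l - m i) * (m l - m j))
      (mul_ne_zero (mul_ne_zero (sub_ne_zero.2 (hm.ne hij.symm)) (sub_ne_zero.2 (hm.ne hil.symm)))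
        (sub_ne_zero.2 (hm.ne hjl.symm)))] with e he h3
    refine he ?_
    simp only [S, C, pointsAuxDt] at h3 ⊢
    linear_combination h3
  have h3 : ∀ᶠ e in 𝓝 (0 : ℝ), ∀ w, S e (lo w) < S e (hi w) := by
    rw [eventually_all]
    intro w
    refine ContinuousAt.eventually_lt (by simp only [S]; fun_prop) (by simp only [S]; fun_prop) ?_
    simpa [S] using h.gap w
  have h4 : ∀ᶠ e in 𝓝 (0 : ℝ), ∀ v i, i ≠ lo v → i ≠ hi v →
      (pointsAuxDt (S e) (C e) (lo v) (hi v) i < 0 ↔ pointsAuxDt s c (lo v) (hi v) i < 0) := by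
    simp only [eventually_all]
    intro v i ha hb
    have e0 : pointsAuxDt (S 0) (C 0) (lo v) (hi v) i = pointsAuxDt s c (lo v) (hi v) i := by
      simp [S, C, pointsAuxDt]
    have := pointsAux_sign (f := fun e => pointsAuxDt (S e) (C e) (lo v) (hi v) i)
      (by simp only [S, C, pointsAuxDt]; fun_prop) (by rw [e0]; exact h.ne v i ha hb)
    filter_upwards [this] with e he
    rw [← e0]
    exact he.2
  obtain ⟨e, ⟨e1, e2⟩, e3, e4⟩ :=
    ((h1.and h2).and (nhdsWithin_le_nhds (h3.and h4))).exists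
  have hne : ∀ v, lo v ≠ hi v := fun v e => (h.gap v).ne (by rw [e])
  refine ⟨S e, C e, ⟨e3, fun v i ha hb => e2 _ _ _ (hne v) ha.symm hb.symm, fun v => ?_⟩,
    fun i j hij => by_contra fun hn => e1 i j hn hij, e2⟩
  rw [← h.cnt v]
  congr 1
  refine filter_congr fun i _ => ?_
  by_cases ha : i = lo v
  · simp [ha, pointsAuxDt]
  by_cases hb : i = hi v
  · simp [hb, pointsAuxDt, mul_comm]
  exact e4 v i ha hb

theorem pointsAux_col {p q r : ℝ × ℝ} (h : Collinear ℝ ({p, q, r} : Set (ℝ × ℝ))) :
    (q.1 - p.1) * (r.2 - p.2) - (q.2 - p.2) * (r.1 - p.1) = 0 := by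
  obtain ⟨v, hv⟩ := (collinear_iff_of_mem (p₀ := p) (by simp)).1 h
  obtain ⟨a, rfl⟩ := hv q (by simp)
  obtain ⟨b, rfl⟩ := hv r (by simp)
  simp
  ring

theorem pointsAux_core {ι W : Type} [Fintype ι] [Fintype W] {s c : ι → ℝ} {lo hi : W → ι}
    {β : ℕ} (h : PointsAuxR s c lo hi β) (hs : Function.Injective s)
    (hinj : ∀ w w', hi w = hi w' → lo w = lo w' → w = w') :
    Fintype.card W ≤ kSets (univ.image fun i => (s i, c i)) (β + 1) ∧
      (Fintype.card ι = 2 * (β + 1) →
        Fintype.card W ≤ halvingLines (univ.image fun i => (s i, c i))) := by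
  set p : ι → ℝ × ℝ := fun i => (s i, c i) with hp
  have hpi : Function.Injective p := fun i j e => hs (congrArg Prod.fst e)
  let t : W → ℝ := fun v => (c (lo v) - c (hi v)) / (s (hi v) - s (lo v))
  let Y : W → ℝ := fun v => t v * s (lo v) + c (lo v)
  have hg : ∀ v, 0 < s (hi v) - s (lo v) := fun v => sub_pos.2 (h.gap v)
  have ht : ∀ v, t v * (s (hi v) - s (lo v)) = c (lo v) - c (hi v) := fun v =>
    div_mul_cancel₀ _ (hg v).ne'
  have hYhi : ∀ v, t v * s (hi v) + c (hi v) = Y v := fun v => by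
    simp only [Y]; linear_combination ht v
  have hdt : ∀ v i, pointsAuxDt s c (lo v) (hi v) i
      = (s (hi v) - s (lo v)) * (t v * s i + c i - Y v) := by
    intro v i
    simp only [pointsAuxDt, Y]
    linear_combination (s (lo v) - s i) * ht v
  have hne : ∀ v i, i ≠ lo v → i ≠ hi v → t v * s i + c i ≠ Y v := by
    intro v i ha hb e
    refine h.ne v i ha hb ?_
    rw [hdt, e, sub_self, mul_zero]
  let B : W → Finset ι := fun v => univ.filter fun i => t v * s i + c i < Y v
  have hB : ∀ v, (B v).card = β := by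
    intro v
    rw [← h.cnt v]
    congr 1
    refine filter_congr fun i _ => ?_
    rw [hdt, pointsAux_neg (hg v), sub_neg]
  have hlh : ∀ v, lo v ≠ hi v := fun v e => (h.gap v).ne (by rw [e])
  have hlo : ∀ v, lo v ∉ B v := fun v hv => (mem_filter.1 hv).2.ne rfl
  have hhi : ∀ v, hi v ∉ insert (lo v) (B v) := fun v hv =>
    (mem_insert.1 hv).elim (hlh v).symm fun hv => (mem_filter.1 hv).2.ne (hYhi v)
  have hin : ∀ v, ∀ i ∈ insert (lo v) (B v), t v * s i + c i ≤ Y v := fun v i hi' =>
    (mem_insert.1 hi').elim (fun e => by rw [e]) fun hv => (mem_filter.1 hv).2.le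
  have hout : ∀ v, ∀ i ∉ insert (lo v) (B v), Y v ≤ t v * s i + c i := fun v i hi' =>
    not_lt.1 fun hv => hi' (mem_insert_of_mem (mem_filter.2 ⟨mem_univ _, hv⟩))
  constructor
  · rw [kSets, ← card_univ]
    refine card_le_card_of_injOn (fun v => (insert (lo v) (B v)).image p) (fun v _ => ?_) ?_
    · rw [mem_coe, mem_filter, mem_powersetCard]
      refine ⟨⟨image_subset_image (subset_univ _), ?_⟩, ?_⟩
      · rw [card_image_of_injective _ hpi, card_insert_of_notMem (hlo v), hB]
      · have h1 : ∀ᶠ η in 𝓝 (0 : ℝ), ∀ i,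
            (t v * s i + c i < Y v →
              (t v + η) * s i + c i < Y v + η * ((s (lo v) + s (hi v)) / 2)) ∧
            (Y v < t v * s i + c i →
              Y v + η * ((s (lo v) + s (hi v)) / 2) < (t v + η) * s i + c i) := by
          simp only [eventually_all, eventually_and]
          intro i
          exact ⟨fun h1 => ContinuousAt.eventually_lt (by fun_prop) (by fun_prop) (by simpa using h1),
            fun h1 => ContinuousAt.eventually_lt (by fun_prop) (by fun_prop) (by simpa using h1)⟩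
        obtain ⟨η, h2, h3⟩ := ((h1.filter_mono (nhdsWithin_le_nhds (s := Set.Ioi 0))).and
          self_mem_nhdsWithin).exists
        have h4 : 0 < η * (s (hi v) - s (lo v)) := mul_pos h3 (hg v)
        refine ⟨t v + η, 1, Y v + η * ((s (lo v) + s (hi v)) / 2), Or.inr one_ne_zero, ?_, ?_⟩
        · intro q hq
          obtain ⟨i, hi', rfl⟩ := mem_image.1 hq
          simp only [hp, one_mul]
          rcases mem_insert.1 hi' with rfl | hv
          · simp only [Y]; linarith
          · exact (h2 i).1 (mem_filter.1 hv).2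
        · intro q hq hq'
          obtain ⟨i, -, rfl⟩ := mem_image.1 hq
          have h5 : i ∉ insert (lo v) (B v) := fun h5 => hq' (mem_image_of_mem _ h5)
          simp only [hp, one_mul]
          by_cases hb : i = hi v
          · rw [hb, ← hYhi v]; linarith
          · exact (h2 i).2 (lt_of_le_of_ne (hout v i h5)
              (hne v i (fun e => h5 (e ▸ mem_insert_self _ _)) hb).symm)
    · have key : ∀ v w, insert (lo v) (B v) = insert (lo w) (B w) →
          t w * s (lo v) + c (lo v) ≤ Y w ∧ Y w ≤ t w * s (hi v) + c (hi v) := fun v w e =>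
        ⟨hin w _ (e ▸ mem_insert_self _ _), hout w _ (e ▸ hhi v)⟩
      have key2 : ∀ v w, insert (lo v) (B v) = insert (lo w) (B w) → t v ≤ t w := by
        intro v w e
        obtain ⟨k1, k2⟩ := key v w e
        refine le_of_mul_le_mul_right ?_ (hg v)
        rw [ht]
        linarith
      intro v _ w _ e
      have e' : insert (lo v) (B v) = insert (lo w) (B w) := image_injective hpi e
      have e1 : t v = t w := le_antisymm (key2 v w e') (key2 w v e'.symm)
      obtain ⟨k1, k2⟩ := key v w e'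
      have e2 : Y v = Y w := by
        rw [← e1] at k1 k2
        rw [hYhi] at k2
        exact le_antisymm k1 k2
      have e3 : lo v = lo w := by
        refine (mem_insert.1 (e' ▸ mem_insert_self _ _ : lo v ∈ insert (lo w) (B w))).resolve_right
          fun hv => (mem_filter.1 hv).2.ne ?_
        rw [← e1, ← e2]
      refine hinj v w ?_ e3
      by_contra hn
      refine hne w (hi v) (by rw [← e3]; exact (hlh v).symm) hn ?_
      rw [← e1, ← e2, hYhi]
  · intro hn
    rw [halvingLines, ← card_univ]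
    refine card_le_card_of_injOn (fun v => ({lo v, hi v} : Finset ι).image p) (fun v _ => ?_) ?_
    · rw [mem_coe, mem_filter, mem_powersetCard]
      refine ⟨⟨image_subset_image (subset_univ _), ?_⟩, t v, 1, Y v, Or.inr one_ne_zero, ?_, ?_, ?_⟩
      · rw [card_image_of_injective _ hpi, card_pair (hlh v)]
      · intro q hq
        obtain ⟨i, hi', rfl⟩ := mem_image.1 hq
        simp only [hp, one_mul]
        rcases mem_insert.1 hi' with rfl | hv
        · rfl
        · rw [mem_singleton.1 hv, hYhi]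
      · rw [filter_image, card_image_of_injective _ hpi, card_image_of_injective _ hpi, card_univ,
          hn]
        simp only [hp, one_mul]
        rw [hB]
        omega
      · rw [filter_image, card_image_of_injective _ hpi, card_image_of_injective _ hpi, card_univ,
          hn]
        simp only [hp, one_mul]
        have h1 : (univ.filter fun i => Y v < t v * s i + c i)
            = univ \ insert (hi v) (insert (lo v) (B v)) := by
          ext i
          simp only [mem_filter, mem_univ, true_and, Finset.mem_sdiff, mem_insert, not_or, B,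
            not_lt]
          constructor
          · intro h2
            refine ⟨fun e => h2.ne' ?_, fun e => h2.ne' ?_, h2.le⟩
            · rw [e, hYhi]
            · rw [e]
          · exact fun h2 => lt_of_le_of_ne h2.2.2 (hne v i h2.2.1 h2.1).symm
        rw [h1, card_univ_sdiff, card_insert_of_notMem (hhi v), card_insert_of_notMem (hlo v), hB, hn]
        omega
    · intro v _ w _ e
      have e' : ({lo v, hi v} : Finset ι) = {lo w, hi w} := image_injective hpi e
      have a1 : hi v ∈ ({lo w, hi w} : Finset ι) := e' ▸ by simp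
      have a2 : lo v ∈ ({lo w, hi w} : Finset ι) := e' ▸ by simp
      simp only [mem_insert, mem_singleton] at a1 a2
      have g1 := h.gap v
      have g2 := h.gap w
      rcases a1 with a1 | a1 <;> rcases a2 with a2 | a2
      · exact absurd (a2.trans a1.symm) (hlh v)
      · rw [a1, a2] at g1; exact absurd g1 g2.not_gt
      · exact hinj v w a1 a2
      · exact absurd (a2.trans a1.symm) (hlh v)

theorem exists_points {ι W : Type} [Fintype ι] [Fintype W] {G β : ℕ} {X : Dat ι W G} (h : X.Q β)
    {n k : ℕ} (hk : β + 1 ≤ k) (hn : Fintype.card ι + k ≤ n) :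
    ∃ P : Finset (ℝ × ℝ), P.card = n ∧ GenPos P ∧ Fintype.card W ≤ kSets P k ∧
      (n = 2 * k → Fintype.card W ≤ halvingLines P) := by
  obtain ⟨X', h'⟩ := pointsAux_ext h (k - 1 - β) (n - Fintype.card ι - (k - 1 - β))
  obtain ⟨s, c, hR, hs, hd⟩ := pointsAux_perturb (pointsAux_R h')
  obtain ⟨h1, h2⟩ := pointsAux_core hR hs h'.inj
  have e1 : β + (k - 1 - β) + 1 = k := by omega
  have e2 : Fintype.card (ι ⊕ Fin (k - 1 - β) ⊕ Fin (n - Fintype.card ι - (k - 1 - β))) = n := by
    simp only [Fintype.card_sum, Fintype.card_fin]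
    omega
  rw [e1] at h1 h2
  rw [e2] at h2
  refine ⟨_, ?_, ?_, h1, h2⟩
  · rw [card_image_of_injective _ fun i j e => hs (congrArg Prod.fst e), card_univ, e2]
  · intro p hp q hq r hr hpq hpr hqr hc
    obtain ⟨i, -, rfl⟩ := mem_image.1 hp
    obtain ⟨j, -, rfl⟩ := mem_image.1 hq
    obtain ⟨l, -, rfl⟩ := mem_image.1 hr
    exact hd i j l (fun e => hpq (by rw [e])) (fun e => hpr (by rw [e])) (fun e => hqr (by rw [e]))
      (pointsAux_col hc)

end Vale.Agent.P065
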