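import Vale.Agent.P065.StepC

/-! P065: the product step. -/

namespace Vale.Agent.P065

open Classical

namespace Ctx

variable {ι W ι' W' : Type} [Fintype ι] [Fintype ι'] {G G' : ℕ} (C : Ctx ι W ι' W' G G')

/-- the number of lines below in one group -/
noncomputable def cn (V : C.Sl) (i : ι) (k : Fin G) (j : Fin 3) : ℕ :=
  (Finset.univ.filter fun p : C.E × ι' => C.bel V (i, k, j, p)).card

/-- the size of a group -/
noncomputable def Ω : ℕ := Fintype.card (C.E × ι')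

theorem card_const (q : Prop) [Decidable q] :
    (Finset.univ.filter fun _ : C.E × ι' => q).card = if q then C.Ω else 0 := by
  split_ifs with h <;> simp [h, Ω]

theorem sum_ite (t : Fin G) (x y : ℕ) :
    (∑ k : Fin G, if k = t then x else y) + y = G * y + x := by
  have h : ∀ k : Fin G, (if k = t then x else y) + (if k = t then y else 0) =
      y + (if k = t then x else 0) := fun k => by split_ifs <;> omega
  have h2 := Finset.sum_congr rfl fun k (_ : k ∈ Finset.univ) => h k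
  simp only [Finset.sum_add_distrib, Finset.sum_ite_eq', Finset.mem_univ, if_true,
    Finset.sum_const, Finset.card_univ, Fintype.card_fin, smul_eq_mul] at h2
  exact h2

theorem card_row (V : C.Sl) : (Finset.univ.filter fun p : C.E × ι' =>
    (p.1 : ℤ) + C.s p.2 * (V.2.1 : ℕ) = V.2.2.1 ∧ C.U.D V.2.2.2 p.2 < 0).card = C.β' := by
  rw [← C.hU.cnt V.2.2.2]
  refine Finset.card_bij' (fun p _ => p.2) (fun i _ => (C.row V.2.2.1 V.2.1 i, i)) ?_ ?_ ?_ ?_
  · intro p hp
    simp only [Finset.mem_filter, Finset.mem_univ, true_and] at hp ⊢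
    exact hp.2
  · intro i hi
    simp only [Finset.mem_filter, Finset.mem_univ, true_and] at hi ⊢
    exact ⟨by simp only [row]; ring, hi⟩
  · intro p hp
    simp only [Finset.mem_filter, Finset.mem_univ, true_and] at hp
    exact Prod.ext (Subtype.ext (by simp only [row]; omega)) rfl
  · intro i _
    rfl

theorem cn_pair (V : C.Sl) :
    ∑ k, ∑ j, C.cn V (C.X.lo V.1) k j + ∑ k, ∑ j, C.cn V (C.X.hi V.1) k j =
      3 * G * C.Ω + C.β' := by
  obtain ⟨n1, hn1⟩ : ∃ n, n = (Finset.univ.filter fun p : C.E × ι' =>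
    (V.2.2.1 : ℤ) ≤ (p.1 : ℤ) + C.s p.2 * (V.2.1 : ℕ)).card := ⟨_, rfl⟩
  obtain ⟨n2, hn2⟩ : ∃ n, n = (Finset.univ.filter fun p : C.E × ι' =>
    (p.1 : ℤ) + C.s p.2 * (V.2.1 : ℕ) < (V.2.2.1 : ℤ)).card := ⟨_, rfl⟩
  have h12 : n1 + n2 = C.Ω := by
    rw [hn1, hn2]
    simp only [← not_le]
    exact Finset.card_filter_add_card_filter_not _
  have e0 : ∀ k, C.cn V (C.X.lo V.1) k 0 + C.cn V (C.X.hi V.1) k 0 =
      if k = V.2.1 then n1 else C.Ω := by
    intro k
    simp only [cn, bel, if_neg (C.lo_ne_hi V.1 V.1), if_true, true_and]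
    rcases lt_trichotomy k V.2.1 with h | h | h
    · simp [h, h.ne, h.not_gt, Ω]
    · simp [h, hn1]
    · simp [h, h.ne', h.not_gt, Ω]
  have e1 : ∀ k, C.cn V (C.X.lo V.1) k 1 = 0 := by
    intro k
    simp [cn, bel, if_neg (C.lo_ne_hi V.1 V.1)]
  have e2 : ∀ k, C.cn V (C.X.lo V.1) k 2 = C.Ω := by
    intro k
    simp [cn, bel, if_neg (C.lo_ne_hi V.1 V.1), Ω]
  have e3 : ∀ k, C.cn V (C.X.hi V.1) k 1 + C.cn V (C.X.hi V.1) k 2 =
      if k = C.X.ix V.1 then n2 + C.β' + C.Ω else C.Ω := by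
    intro k
    simp only [cn, bel, if_true, if_neg (show (1 : Fin 3) ≠ 0 by decide),
      if_neg (show (2 : Fin 3) ≠ 0 by decide), if_neg (show (2 : Fin 3) ≠ 1 by decide)]
    by_cases h : k = C.X.ix V.1
    · simp only [h, if_true, true_or]
      rw [C.card_const, if_pos trivial, Finset.filter_or, Finset.card_union_of_disjoint, hn2,
        C.card_row]
      exact Finset.disjoint_filter.2 fun p _ h1 h2 => by omega
    · simp only [h, if_false, false_or]
      rw [C.card_const, C.card_const]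
      split_ifs <;> simp_all
  have e4 : ∀ k, ∑ j, C.cn V (C.X.lo V.1) k j + ∑ j, C.cn V (C.X.hi V.1) k j =
      (if k = V.2.1 then n1 else C.Ω) + C.Ω +
        (if k = C.X.ix V.1 then n2 + C.β' + C.Ω else C.Ω) := by
    intro k
    rw [Fin.sum_univ_three, Fin.sum_univ_three, ← e0, ← e3, e1, e2]
    ring
  rw [← Finset.sum_add_distrib, Finset.sum_congr rfl fun k _ => e4 k, Finset.sum_add_distrib,
    Finset.sum_add_distrib]
  have s1 := sum_ite V.2.1 n1 C.Ω
  have s2 := sum_ite (C.X.ix V.1) (n2 + C.β' + C.Ω) C.Ω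
  simp only [Finset.sum_const, Finset.card_univ, Fintype.card_fin, smul_eq_mul]
  have s3 : 3 * G * C.Ω = 3 * (G * C.Ω) := by ring
  omega

theorem cnt (V : C.Sl) : (Finset.univ.filter fun I => C.Y.D V I < 0).card =
    3 * G * C.Ω * (C.β + 1) + C.β' := by
  simp only [C.neg_iff]
  have h1 : (Finset.univ.filter fun I => C.bel V I).card = ∑ i, ∑ k, ∑ j, C.cn V i k j := by
    simp only [cn, Finset.card_filter, Fintype.sum_prod_type]
  have h2 : ∀ i, ∑ k, ∑ j, C.cn V i k j = (if C.X.D V.1 i < 0 then 3 * G * C.Ω else 0) +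
      (if i = C.X.lo V.1 then ∑ k, ∑ j, C.cn V (C.X.lo V.1) k j else 0) +
      (if i = C.X.hi V.1 then ∑ k, ∑ j, C.cn V (C.X.hi V.1) k j else 0) := by
    intro i
    by_cases h3 : i = C.X.lo V.1
    · subst h3
      simp [C.hX.meet, C.lo_ne_hi]
    by_cases h4 : i = C.X.hi V.1
    · subst h4
      simp [h3]
    simp only [cn, bel, if_neg h3, if_neg h4, C.card_const, add_zero]
    split_ifs
    · simp only [Finset.sum_const, Finset.card_univ, Fintype.card_fin, smul_eq_mul]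
      ring
    · simp
  rw [h1, Finset.sum_congr rfl fun i _ => h2 i, Finset.sum_add_distrib, Finset.sum_add_distrib,
    Finset.sum_ite_eq', Finset.sum_ite_eq', ← Finset.sum_filter, Finset.sum_const, C.hX.cnt]
  simp only [Finset.mem_univ, if_true, smul_eq_mul]
  rw [add_assoc, C.cn_pair]
  ring

theorem slot_ext {V V' : C.Sl} {i : ι'} (h : C.mk' V i = C.mk' V' i) (h1 : V.2.1 = V'.2.1)
    (h2 : V.2.2.2 = V'.2.2.2) : V = V' := by
  simp only [mk', Prod.mk.injEq, row, Subtype.mk.injEq] at h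
  refine Prod.ext (C.hX.ix_inj _ _ h.1 h.2.1) (Prod.ext h1 (Prod.ext (Subtype.ext ?_) h2))
  have h3 := h.2.2.2.1
  rw [h1] at h3
  omega

theorem isQ : C.Y.Q (3 * G * C.Ω * (C.β + 1) + C.β') where
  δ_pos I := C.u4.2.2.trans_le (C.nδ_ge _)
  fl_hi V := C.hU.fl_hi _
  fl_lo V := C.hU.fl_lo _
  gap V := by
    have h := C.hU.gap V.2.2.2
    rw [C.hs, C.hs, C.hdl] at h
    simp only [Y, mk', ds, C.has_self, if_true, nδ]
    rw [if_neg (by decide), if_neg (by decide), h]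
    ring
  meet := C.meet
  ne V I h1 h2 := abs_pos.1 ((C.μ_pos V I).trans_le (C.mar V I h1 h2))
  cnt := C.cnt
  ix_inj V V' h1 h2 := by
    have h3 := finProdFinEquiv.injective h2
    have h4 : C.U.hi V.2.2.2 = C.U.hi V'.2.2.2 := congrArg (fun I : C.Li => I.2.2.2.2) h1
    have h5 := C.hU.ix_inj _ _ h4 (congrArg Prod.snd h3)
    change C.mk' V _ = C.mk' V' _ at h1
    rw [← h4] at h1
    exact C.slot_ext h1 (Prod.mk.inj h3).1 h5
  inj V V' h1 h2 := by
    have h4 : C.U.hi V.2.2.2 = C.U.hi V'.2.2.2 := congrArg (fun I : C.Li => I.2.2.2.2) h1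
    have h5 : C.U.lo V.2.2.2 = C.U.lo V'.2.2.2 := congrArg (fun I : C.Li => I.2.2.2.2) h2
    have h6 := C.hU.inj _ _ h4 h5
    have h7 := congrArg (fun I : C.Li => (I.2.2.2.1 : ℤ)) h1
    have h8 := congrArg (fun I : C.Li => (I.2.2.2.1 : ℤ)) h2
    simp only [Y, mk', row, ← h6] at h7 h8
    have h9 := C.hU.gap V.2.2.2
    rw [C.hs, C.hs, C.hdl] at h9
    have h10 : C.s (C.U.hi V.2.2.2) = C.s (C.U.lo V.2.2.2) + C.dl (C.U.lo V.2.2.2) := by
      exact_mod_cast h9
    have h11 : 1 ≤ C.dl (C.U.lo V.2.2.2) := by exact_mod_cast C.dl1 _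
    have h12 : C.dl (C.U.lo V.2.2.2) * (((V.2.1 : ℕ) : ℤ) - (V'.2.1 : ℕ)) = 0 := by
      rw [h10] at h7
      linear_combination h8 - h7
    have h13 : ((V.2.1 : ℕ) : ℤ) - (V'.2.1 : ℕ) = 0 :=
      (mul_eq_zero.1 h12).resolve_left (by omega)
    change C.mk' V _ = C.mk' V' _ at h1
    rw [← h4] at h1
    exact C.slot_ext h1 (Fin.ext (by omega)) h6

theorem isM : C.Y.M (C.u ^ 4) (C.u ^ 4) (C.Z * (100 * G * C.m) ^ 9) := by
  have a1 : C.u * (100 * G * C.m) = 1 := by linear_combination 100 * C.hu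
  have a2 : 100 ≤ (100 * G * C.m : ℝ) := by nlinarith [C.G1, C.m1]
  have a0 := C.hZ
  generalize hM : (100 * G * C.m : ℝ) = M at a1 a2
  have a3 : C.Z * M ^ 9 * C.u ^ 4 = C.Z * M ^ 5 := by
    linear_combination C.Z * M ^ 5 * ((C.u * M) ^ 3 + (C.u * M) ^ 2 + C.u * M + 1) * a1
  have a4 : C.Z * M ^ 5 * C.u ^ 4 = C.Z * M := by
    linear_combination C.Z * M * ((C.u * M) ^ 3 + (C.u * M) ^ 2 + C.u * M + 1) * a1
  have a5 : C.Z * 100 ≤ C.Z * M := mul_le_mul_of_nonneg_left a2 (by linarith)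
  have a6 : C.Z * M ≤ C.Z * M ^ 5 :=
    mul_le_mul_of_nonneg_left (le_self_pow₀ (by linarith) (by norm_num)) (by linarith)
  refine ⟨C.mar, C.cone, fun I => C.nδ_ge _, fun I => ?_, fun I => ?_, fun V => ?_, fun I => ?_⟩
  · rw [a3]
    exact (C.nδ_one _).trans (by linarith)
  · rw [a3]
    refine (abs_add_le _ _).trans ?_
    linarith [C.hM.σ_le I.1, C.ds_le I]
  · rw [a3]
    refine (abs_add_le _ _).trans ?_
    linarith [C.hM.tm_le V.1, C.th_le V]
  · rw [a3, a4]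
    have b1 : |C.piv I.1 I.2.1| ≤ C.Z := by
      unfold piv
      split_ifs
      · simpa using C.hM.tm_le _
      · rw [abs_zero]; linarith
    have b2 : |C.ds I * C.piv I.1 I.2.1| ≤ 51 / 50 * C.Z := by
      rw [abs_mul]
      exact mul_le_mul (C.ds_le I) b1 (abs_nonneg _) (by norm_num)
    refine (abs_add_le _ _).trans ?_
    linarith [C.hM.c_le I.1, C.dh_le I, C.hM.δ_le I.1, abs_sub (C.dh I) (C.ds I * C.piv I.1 I.2.1)]

theorem card_E : Fintype.card C.E = 4 * G * C.m + 1 := by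
  rw [Fintype.card_coe, Int.card_Icc, mul_assoc]
  omega

theorem card_Cen : Fintype.card C.Cen = 2 * G * C.m + 1 := by
  rw [Fintype.card_coe, Int.card_Icc, mul_assoc]
  omega

end Ctx

theorem step {ι W ι' W' : Type} [Fintype ι] [Fintype W] [Fintype ι'] [Fintype W'] {G G' β β' m : ℕ}
    {Z : ℝ} {X : Dat ι W G} {U : Dat ι' W' G'} (hX : X.Q β) (hM : X.M 1 4 Z) (hU : U.Q β')
    (hI : U.I m) (hG : 1 ≤ G) (hm : 1 ≤ m) (hZ : 1 ≤ Z) :
    ∃ (ι₂ W₂ : Type) (_ : Fintype ι₂) (_ : Fintype W₂) (Y : Dat ι₂ W₂ (G * G')) (τ : ℝ), 0 < τ ∧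
      Y.Q (3 * G * ((4 * G * m + 1) * Fintype.card ι') * (β + 1) + β') ∧
      Y.M τ τ (Z * (100 * G * m) ^ 9) ∧
      Fintype.card ι₂ = Fintype.card ι * (3 * G * ((4 * G * m + 1) * Fintype.card ι')) ∧
      Fintype.card W₂ = Fintype.card W * (G * ((2 * G * m + 1) * Fintype.card W')) := by
  choose s hs using hI.σ_int
  choose dl hdl using hI.δ_int
  have h1 : (0 : ℝ) < G := by exact_mod_cast hG
  have h2 : (0 : ℝ) < m := by exact_mod_cast hm
  let C : Ctx ι W ι' W' G G' := ⟨X, U, β, β', m, Z, s, dl, 1 / (100 * (G * m)), hX, hM, hU, hI,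
    hG, hm, hZ, hs, hdl, by positivity, by field_simp⟩
  have h3 : C.Ω = (4 * G * m + 1) * Fintype.card ι' := by
    rw [Ctx.Ω, Fintype.card_prod, C.card_E]
  refine ⟨C.Li, C.Sl, inferInstance, inferInstance, C.Y, C.u ^ 4, C.u4.2.2, h3 ▸ C.isQ, C.isM,
    ?_, ?_⟩
  · simp only [Fintype.card_prod, Fintype.card_fin, C.card_E]
    change _ * (G * (3 * ((4 * G * m + 1) * _))) = _
    ring
  · simp only [Fintype.card_prod, Fintype.card_fin, C.card_Cen]
    rfl

end Vale.Agent.P065
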