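import Vale.Agent.P065.Cfg

/-! P065: the product step, definitions and elementary bounds. -/

namespace Vale.Agent.P065

open Classical

/-- the data of a product step -/
structure Ctx (ι W ι' W' : Type) [Fintype ι] [Fintype ι'] (G G' : ℕ) where
  X : Dat ι W G
  U : Dat ι' W' G'
  β : ℕ
  β' : ℕ
  m : ℕ
  Z : ℝ
  s : ι' → ℤ
  dl : ι' → ℤ
  u : ℝ
  hX : X.Q β
  hM : X.M 1 4 Z
  hU : U.Q β'
  hI : U.I m
  hG : 1 ≤ G
  hm : 1 ≤ m
  hZ : 1 ≤ Z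
  hs : ∀ i, U.σ i = s i
  hdl : ∀ i, U.δ i = dl i
  u0 : 0 < u
  hu : u * (G * m) = 1 / 100

namespace Ctx

variable {ι W ι' W' : Type} [Fintype ι] [Fintype ι'] {G G' : ℕ} (C : Ctx ι W ι' W' G G')

include C in
theorem G1 : (1 : ℝ) ≤ G := by exact_mod_cast C.hG
theorem m1 : (1 : ℝ) ≤ C.m := by exact_mod_cast C.hm

theorem uG : C.u * G ≤ 1 / 100 := by
  have h1 := C.hu
  have h2 := C.m1
  have h3 : 0 ≤ C.u * G := mul_nonneg C.u0.le (Nat.cast_nonneg G)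
  nlinarith

theorem um : C.u * C.m ≤ 1 / 100 := by
  have h1 := C.hu
  have h2 := C.G1
  have h3 : 0 ≤ C.u * C.m := mul_nonneg C.u0.le (Nat.cast_nonneg _)
  nlinarith

theorem u1 : C.u ≤ 1 / 100 := by
  have h1 := C.uG
  have h2 := C.G1
  have h3 := C.u0
  nlinarith

/-- anything of size at most `m` is small against `u` -/
theorem sm {z : ℝ} (h : |z| ≤ C.m) : |C.u * z| ≤ 1 / 100 := by
  rw [abs_mul, abs_of_pos C.u0]
  exact (mul_le_mul_of_nonneg_left h C.u0.le).trans C.um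

theorem smG {z r : ℝ} (h : |z| ≤ r * (G * C.m)) : |C.u * z| ≤ r / 100 := by
  rw [abs_mul, abs_of_pos C.u0]
  refine (mul_le_mul_of_nonneg_left h C.u0.le).trans (le_of_eq ?_)
  rw [mul_left_comm, C.hu]; ring

theorem s_le (i : ι') : |(C.s i : ℝ)| ≤ C.m := by rw [← C.hs]; exact C.hI.σ_le i

theorem sd_le (i : ι') : |(C.s i : ℝ) + C.dl i| ≤ C.m := by
  rw [← C.hs, ← C.hdl]; exact C.hI.σδ_le i

theorem dl1 (i : ι') : (1 : ℝ) ≤ C.dl i := by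
  have h := C.hU.δ_pos i
  rw [C.hdl] at h
  have h2 : 0 < C.dl i := by exact_mod_cast h
  exact_mod_cast h2

theorem δ4 (i : ι) : 4 ≤ C.X.δ i := C.hM.δ_ge i

theorem ku (k : Fin G) : 0 ≤ (k : ℝ) * C.u ∧ ((k : ℝ) + 1) * C.u ≤ 1 / 100 := by
  refine ⟨mul_nonneg (Nat.cast_nonneg _) C.u0.le, ?_⟩
  have h1 : ((k : ℕ) : ℝ) + 1 ≤ G := by exact_mod_cast k.2
  have h2 := C.uG
  have h3 := C.u0
  nlinarith

theorem sk_le (i : ι') (k : Fin G) : |C.s i * (k : ℕ)| ≤ (G * C.m : ℕ) := by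
  have h1 : |C.s i| ≤ C.m := by exact_mod_cast C.s_le i
  have h2 : ((k : ℕ) : ℤ) ≤ G := by exact_mod_cast k.2.le
  rw [abs_mul, abs_of_nonneg (Int.natCast_nonneg (k : ℕ))]
  push_cast
  rw [mul_comm]
  exact mul_le_mul h2 h1 (abs_nonneg _) (Int.natCast_nonneg _)

/-- the tilted slope -/
noncomputable def f (z : ℝ) : ℝ := C.u * z / (1 + 2 * (C.u * z))

theorem den {z : ℝ} (h : |z| ≤ C.m) : 49 / 50 ≤ 1 + 2 * (C.u * z) ∧ 1 + 2 * (C.u * z) ≤ 51 / 50 := by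
  have h1 := abs_le.1 (C.sm h)
  constructor <;> linarith [h1.1, h1.2]

theorem f_le {z : ℝ} (h : |z| ≤ C.m) : |C.f z| ≤ 1 / 50 := by
  have h1 := C.den h
  have h2 := C.sm h
  unfold f
  rw [abs_div, abs_of_pos (by linarith [h1.1] : 0 < 1 + 2 * (C.u * z)),
    div_le_iff₀ (by linarith [h1.1])]
  linarith [h1.1]

theorem f_sub {z z' : ℝ} (h : |z| ≤ C.m) (h' : |z'| ≤ C.m) :
    C.f z - C.f z' = C.u * (z - z') / ((1 + 2 * (C.u * z)) * (1 + 2 * (C.u * z'))) := by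
  have h1 := C.den h
  have h2 := C.den h'
  unfold f
  have h3 : 1 + 2 * (C.u * z) ≠ 0 := by linarith [h1.1]
  have h4 : 1 + 2 * (C.u * z') ≠ 0 := by linarith [h2.1]
  rw [div_sub_div _ _ h3 h4]
  congr 1
  ring

theorem f_lip {z z' : ℝ} (h : |z| ≤ C.m) (h' : |z'| ≤ C.m) :
    |C.f z - C.f z'| ≤ |z - z'| / 50 := by
  have h1 := C.den h
  have h2 := C.den h'
  have h3 : 9 / 10 ≤ (1 + 2 * (C.u * z)) * (1 + 2 * (C.u * z')) := by nlinarith [h1.1, h2.1]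
  rw [C.f_sub h h', abs_div, abs_of_pos (by linarith : 0 < (1 + 2 * (C.u * z)) *
    (1 + 2 * (C.u * z'))), div_le_iff₀ (by linarith), abs_mul, abs_of_pos C.u0]
  have h4 := abs_nonneg (z - z')
  have h5 := C.u1
  nlinarith

/-- the new gap -/
noncomputable def nδ (i : ι') : ℝ := C.f (C.s i + C.dl i) - C.f (C.s i)

theorem nδ_le (i : ι') : C.nδ i ≤ C.dl i / 50 := by
  have h := C.f_lip (C.sd_le i) (C.s_le i)
  rw [add_sub_cancel_left, abs_of_pos (by linarith [C.dl1 i] : (0 : ℝ) < C.dl i)] at h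
  exact (le_abs_self _).trans h

theorem nδ_one (i : ι') : C.nδ i ≤ 1 := by
  have h1 := abs_le.1 (C.f_le (C.sd_le i))
  have h2 := abs_le.1 (C.f_le (C.s_le i))
  unfold nδ
  linarith [h1.2, h2.1]

theorem u4 : C.u ^ 4 ≤ C.u ^ 2 / 10000 ∧ C.u ^ 2 ≤ C.u / 100 ∧ 0 < C.u ^ 4 := by
  have h1 := C.u1
  have h2 := C.u0
  have h3 : C.u ^ 2 ≤ C.u / 100 := by nlinarith
  have h4 : C.u ^ 2 ≤ 1 / 10000 := by nlinarith
  refine ⟨?_, h3, by positivity⟩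
  have h5 : 0 < C.u ^ 2 := by positivity
  nlinarith

theorem nδ_ge (i : ι') : C.u ^ 4 ≤ C.nδ i := by
  have h1 := C.den (C.sd_le i)
  have h2 := C.den (C.s_le i)
  have h3 : (1 + 2 * (C.u * (C.s i + C.dl i))) * (1 + 2 * (C.u * C.s i)) ≤ 2 := by
    nlinarith [h1.1, h1.2, h2.1, h2.2]
  have h4 : 0 < (1 + 2 * (C.u * (C.s i + C.dl i))) * (1 + 2 * (C.u * C.s i)) :=
    mul_pos (by linarith [h1.1]) (by linarith [h2.1])
  unfold nδ
  rw [C.f_sub (C.sd_le i) (C.s_le i), le_div_iff₀ h4, add_sub_cancel_left]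
  have h5 := C.u4
  have h6 := C.dl1 i
  have h7 := C.u0
  nlinarith

/-- the rows -/
abbrev E : Type := Finset.Icc (-(2 * (G * C.m : ℕ) : ℤ)) (2 * (G * C.m : ℕ))

/-- the complete rows -/
abbrev Cen : Type := Finset.Icc (-((G * C.m : ℕ) : ℤ)) (G * C.m : ℕ)

abbrev Li : Type := ι × Fin G × Fin 3 × C.E × ι'

abbrev Sl : Type := W × Fin G × C.Cen × W'

theorem e_le (e : C.E) : |C.u * ((e : ℤ) : ℝ)| ≤ 2 / 100 := by
  refine C.smG ?_
  have h := Finset.mem_Icc.1 e.2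
  have h2 : |(e : ℤ)| ≤ 2 * (G * C.m : ℕ) := abs_le.2 h
  exact_mod_cast h2

theorem g_le (g : C.Cen) : |C.u * ((g : ℤ) : ℝ)| ≤ 1 / 100 := by
  refine C.smG (r := 1) ?_
  have h := Finset.mem_Icc.1 g.2
  have h2 : |(g : ℤ)| ≤ (G * C.m : ℕ) := abs_le.2 h
  rw [one_mul]
  exact_mod_cast h2

theorem usk (i : ι') (k : Fin G) : |C.u * ((C.s i : ℝ) * (k : ℕ))| ≤ 1 / 100 := by
  refine C.smG (r := 1) ?_
  rw [one_mul]
  exact_mod_cast C.sk_le i k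

/-- the row index of a line of the bundle passing through the row `g` at the sweep `t` -/
def row (g : C.Cen) (t : Fin G) (i : ι') : C.E :=
  ⟨g - C.s i * (t : ℕ), by
    have h := Finset.mem_Icc.1 g.2
    have h2 := abs_le.1 (C.sk_le i t)
    rw [Finset.mem_Icc]
    constructor <;> linarith [h.1, h.2, h2.1, h2.2]⟩

def has (i : ι) (k : Fin G) : Prop := ∃ w, C.X.hi w = i ∧ C.X.ix w = k

noncomputable def piv (i : ι) (k : Fin G) : ℝ := if h : C.has i k then C.X.tm h.choose else 0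

theorem has_self (w : W) : C.has (C.X.hi w) (C.X.ix w) := ⟨w, rfl, rfl⟩

theorem piv_self (w : W) : C.piv (C.X.hi w) (C.X.ix w) = C.X.tm w := by
  unfold piv
  rw [dif_pos (C.has_self w)]
  have h := (C.has_self w).choose_spec
  rw [C.hX.ix_inj _ _ h.1 h.2]

theorem not_has_lo (w : W) (k : Fin G) : ¬ C.has (C.X.lo w) k := by
  rintro ⟨w', h, -⟩
  exact C.hX.fl_lo w (h ▸ C.hX.fl_hi w')

/-- the deviation of the slope -/
noncomputable def ds (I : C.Li) : ℝ :=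
  if C.has I.1 I.2.1 then
    (if I.2.2.1 = 0 then 0 else if I.2.2.1 = 1 then -1 + C.f (C.s I.2.2.2.2) else 1)
  else 0

/-- the deviation of the height at the pivot -/
noncomputable def dh (I : C.Li) : ℝ :=
  if I.2.2.1 = 0 then
    (if C.X.fl I.1 then -((I.2.1 : ℕ) * C.u) -
        C.u ^ 2 * (((I.2.2.2.1 : ℤ) : ℝ) + C.s I.2.2.2.2 * (I.2.1 : ℕ) + 1 / 2)
      else (C.X.δ I.1 - 1) * (((I.2.1 : ℕ) + 1 / 2) * C.u))
  else if I.2.2.1 = 1 then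
    (if C.has I.1 I.2.1 then (C.u ^ 2 * ((I.2.2.2.1 : ℤ) : ℝ) + C.u ^ 4 * C.U.c I.2.2.2.2) /
        (1 + 2 * (C.u * C.s I.2.2.2.2)) else C.X.δ I.1 / 4)
  else (if C.has I.1 I.2.1 then -(1 / 4) else -(C.X.δ I.1 / 4))

theorem ds_le (I : C.Li) : |C.ds I| ≤ 51 / 50 := by
  have h := abs_le.1 (C.f_le (C.s_le I.2.2.2.2))
  unfold ds
  split_ifs <;> rw [abs_le] <;> constructor <;> linarith [h.1, h.2]

theorem dh_b (e : C.E) (i : ι') :
    |(C.u ^ 2 * ((e : ℤ) : ℝ) + C.u ^ 4 * C.U.c i) / (1 + 2 * (C.u * C.s i))| ≤ 1 / 50 := by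
  have h1 := C.den (C.s_le i)
  have h2 := abs_le.1 (C.e_le e)
  have h3 := abs_le.1 (C.sm (C.hI.c_le i))
  have h4 := C.u1
  have h5 := C.u0
  have h6 : C.u ^ 3 ≤ 1 / 100 := by nlinarith [pow_pos h5 2]
  have h7 : 0 < C.u ^ 3 := by positivity
  rw [abs_div, abs_of_pos (by linarith [h1.1] : 0 < 1 + 2 * (C.u * C.s i)),
    div_le_iff₀ (by linarith [h1.1])]
  have e1 : C.u ^ 2 * ((e : ℤ) : ℝ) + C.u ^ 4 * C.U.c i =
    C.u * (C.u * ((e : ℤ) : ℝ)) + C.u ^ 3 * (C.u * C.U.c i) := by ring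
  rw [e1, abs_le]
  constructor <;> nlinarith [h1.1, h2.1, h2.2, h3.1, h3.2]

theorem dh_le (I : C.Li) : |C.dh I| ≤ C.X.δ I.1 / 4 := by
  have h1 := C.δ4 I.1
  have h2 := C.ku I.2.1
  have h5 := C.u0
  have h4 := C.u1
  unfold dh
  split_ifs
  · have h3 := abs_le.1 (C.e_le I.2.2.2.1)
    have h6 := abs_le.1 (C.usk I.2.2.2.2 I.2.1)
    have e1 : C.u ^ 2 * (((I.2.2.2.1 : ℤ) : ℝ) + C.s I.2.2.2.2 * (I.2.1 : ℕ) + 1 / 2) =
      C.u * (C.u * ((I.2.2.2.1 : ℤ) : ℝ) + C.u * (C.s I.2.2.2.2 * (I.2.1 : ℕ)) + C.u / 2) := by ring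
    rw [e1, abs_le]
    constructor <;> nlinarith [h2.1, h2.2, h3.1, h3.2, h6.1, h6.2]
  · rw [abs_le]
    constructor <;> nlinarith [h2.1, h2.2]
  · exact (C.dh_b _ _).trans (by linarith)
  · rw [abs_of_pos (by linarith)]
  · rw [abs_neg, abs_of_pos (by norm_num)]; linarith
  · rw [abs_neg, abs_of_pos (by linarith)]

/-- the height of the small slot -/
def Yu (ω : W') : ℝ := C.s (C.U.hi ω) * C.U.tm ω + C.U.c (C.U.hi ω)

/-- the height of a new slot over the central line of the bundle -/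
def ys (V : C.Sl) : ℝ := C.u ^ 2 * ((V.2.2.1 : ℤ) : ℝ) + C.u ^ 4 * C.Yu V.2.2.2

/-- the time of a new slot, measured from the old slot -/
def th (V : C.Sl) : ℝ := (V.2.1 : ℕ) * C.u + C.u ^ 3 * C.U.tm V.2.2.2 + 2 * C.ys V

theorem Yu_le (ω : W') : |C.u ^ 4 * C.Yu ω| ≤ C.u ^ 2 / 5000 := by
  have h1 := C.sm (C.s_le (C.U.hi ω))
  have h2 := C.sm (C.hI.tm_le ω)
  have h3 := C.sm (C.hI.c_le (C.U.hi ω))
  have h4 := C.u1
  have h5 := C.u0
  have e1 : C.u ^ 4 * C.Yu ω = C.u ^ 2 * ((C.u * C.s (C.U.hi ω)) * (C.u * C.U.tm ω) +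
    C.u * (C.u * C.U.c (C.U.hi ω))) := by unfold Yu; ring
  have h6 : |(C.u * C.s (C.U.hi ω)) * (C.u * C.U.tm ω)| ≤ 1 / 100 * (1 / 100) := by
    rw [abs_mul]; exact mul_le_mul h1 h2 (abs_nonneg _) (by norm_num)
  have h7 : |C.u * (C.u * C.U.c (C.U.hi ω))| ≤ 1 / 100 * (1 / 100) := by
    rw [abs_mul, abs_of_pos h5]; exact mul_le_mul h4 h3 (abs_nonneg _) (by norm_num)
  rw [e1, abs_mul, abs_of_pos (pow_pos h5 2)]
  have h8 := (abs_add_le _ _).trans (add_le_add h6 h7)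
  nlinarith [pow_pos h5 2]

theorem tm_b (ω : W') : |C.u ^ 3 * C.U.tm ω| ≤ C.u ^ 2 / 100 := by
  have h2 := C.sm (C.hI.tm_le ω)
  have h5 := C.u0
  rw [show C.u ^ 3 * C.U.tm ω = C.u ^ 2 * (C.u * C.U.tm ω) by ring, abs_mul,
    abs_of_pos (pow_pos h5 2)]
  nlinarith [pow_pos h5 2]

theorem ys_le (V : C.Sl) : |C.ys V| ≤ C.u / 50 := by
  have h1 := abs_le.1 (C.g_le V.2.2.1)
  have h2 := abs_le.1 (C.Yu_le V.2.2.2)
  have h3 := C.u4
  have h5 := C.u0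
  unfold ys
  rw [show C.u ^ 2 * ((V.2.2.1 : ℤ) : ℝ) = C.u * (C.u * ((V.2.2.1 : ℤ) : ℝ)) by ring, abs_le]
  constructor <;> nlinarith [h1.1, h1.2, h2.1, h2.2, h3.2.1]

theorem th_le (V : C.Sl) : |C.th V| ≤ 1 / 50 := by
  have h1 := abs_le.1 (C.ys_le V)
  have h2 := abs_le.1 (C.tm_b V.2.2.2)
  have h3 := C.u4
  have h4 := C.u1
  have h5 := C.u0
  have h6 := C.ku V.2.1
  unfold th
  rw [abs_le]
  constructor <;> nlinarith [h1.1, h1.2, h2.1, h2.2, h3.2.1, h6.1, h6.2]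

/-- the line of the bundle of the slot `V.1` through the row of `V` -/
def mk' (V : C.Sl) (i : ι') : C.Li := (C.X.hi V.1, C.X.ix V.1, 1, C.row V.2.2.1 V.2.1 i, i)

/-- the product configuration -/
noncomputable def Y : Dat C.Li C.Sl (G * G') where
  σ I := C.X.σ I.1 + C.ds I
  c I := C.X.c I.1 + (C.dh I - C.ds I * C.piv I.1 I.2.1)
  δ I := C.nδ I.2.2.2.2
  fl I := C.U.fl I.2.2.2.2
  lo V := C.mk' V (C.U.lo V.2.2.2)
  hi V := C.mk' V (C.U.hi V.2.2.2)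
  tm V := C.X.tm V.1 + C.th V
  ix V := finProdFinEquiv (V.2.1, C.U.ix V.2.2.2)

/-- the deviation of a line of the own bundle -/
theorem dev_own (V : C.Sl) (e : C.E) (i : ι') :
    C.ds (C.X.hi V.1, C.X.ix V.1, 1, e, i) * C.th V + C.dh (C.X.hi V.1, C.X.ix V.1, 1, e, i) =
      -C.th V + C.ys V + (C.u ^ 2 * ((((e : ℤ) + C.s i * (V.2.1 : ℕ) - V.2.2.1 : ℤ)) : ℝ) +
        C.u ^ 4 * C.U.D V.2.2.2 i) / (1 + 2 * (C.u * C.s i)) := by
  have h1 := C.den (C.s_le i)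
  have h3 : 1 + 2 * (C.u * C.s i) ≠ 0 := by linarith [h1.1]
  simp only [ds, dh, C.has_self, if_true, f, Dat.D, C.hs]
  rw [if_neg (by decide), if_neg (by decide)]
  push_cast
  have key : ∀ a b c d y t q : ℝ, q ≠ 0 → a * t + b = y * q + c → d = -t →
      (-1 + a / q) * t + b / q = d + y + c / q := by
    intro a b c d y t q hq h h'
    rw [h']
    field_simp
    linear_combination h
  refine key _ _ _ _ _ _ _ h3 ?_ rfl
  unfold th ys Yu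
  ring

theorem D_eq (V : C.Sl) (I : C.Li) : C.Y.D V I =
    C.X.D V.1 I.1 + (C.X.σ I.1 - C.X.σ (C.X.hi V.1)) * C.th V +
      (C.ds I * (C.X.tm V.1 + C.th V - C.piv I.1 I.2.1) + C.dh I) + C.th V - C.ys V := by
  have h := C.dev_own V (C.row V.2.2.1 V.2.1 (C.U.hi V.2.2.2)) (C.U.hi V.2.2.2)
  rw [Dat.D_hi] at h
  simp only [row, sub_add_cancel, sub_self, Int.cast_zero, mul_zero, add_zero, zero_div] at h
  simp only [Dat.D, Y, mk', C.piv_self, row]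
  linear_combination -h

end Ctx

end Vale.Agent.P065
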