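import Vale.Agent.P065.StepA

/-! P065: the product step, the position of every line relative to a new slot. -/

namespace Vale.Agent.P065

open Classical

namespace Ctx

variable {ι W ι' W' : Type} [Fintype ι] [Fintype ι'] {G G' : ℕ} (C : Ctx ι W ι' W' G G')

theorem caseA (V : C.Sl) (I : C.Li) (h1 : I.1 ≠ C.X.lo V.1) (h2 : I.1 ≠ C.X.hi V.1) :
    |C.Y.D V I - C.X.D V.1 I.1| ≤ 3 / 4 * |C.X.D V.1 I.1| := by
  have a1 := C.hM.mar V.1 I.1 h1 h2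
  have a2 := C.δ4 I.1
  have a3 := C.th_le V
  have a4 := C.ys_le V
  have a5 := C.u1
  have a6 := C.dh_le I
  have a7 : |(C.X.σ I.1 - C.X.σ (C.X.hi V.1)) * C.th V| ≤
      |C.X.σ I.1 - C.X.σ (C.X.hi V.1)| * (1 / 50) := by
    rw [abs_mul]; exact mul_le_mul_of_nonneg_left a3 (abs_nonneg _)
  have a8 : |C.ds I * (C.X.tm V.1 + C.th V - C.piv I.1 I.2.1)| ≤
      51 / 50 * (|C.X.D V.1 I.1| / 4 + 1 / 50) := by
    by_cases hh : C.has I.1 I.2.1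
    · obtain ⟨w, e1, e2⟩ := hh
      have b1 := C.hM.cone V.1 w (e1 ▸ h2)
      rw [e1] at b1
      have b2 : C.piv I.1 I.2.1 = C.X.tm w := by rw [← e1, ← e2, C.piv_self]
      rw [abs_mul, b2]
      refine mul_le_mul (C.ds_le I) ?_ (abs_nonneg _) (by norm_num)
      rw [add_sub_right_comm]
      exact (abs_add_le _ _).trans (add_le_add (by linarith) a3)
    · rw [ds, if_neg hh, zero_mul, abs_zero]
      positivity
  rw [C.D_eq]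
  have a9 := abs_nonneg (C.X.σ I.1 - C.X.σ (C.X.hi V.1))
  rw [abs_le] at a3 a4 a6 a7 a8 ⊢
  constructor <;> linarith [a3.1, a3.2, a4.1, a4.2, a6.1, a6.2, a7.1, a7.2, a8.1, a8.2]

theorem D_lo (V : C.Sl) (k : Fin G) (j : Fin 3) (e : C.E) (i : ι') :
    C.Y.D V (C.X.lo V.1, k, j, e, i) =
      -((C.X.δ (C.X.lo V.1) - 1) * C.th V) + C.dh (C.X.lo V.1, k, j, e, i) - C.ys V := by
  rw [C.D_eq]
  simp only [C.hX.meet, ds, C.not_has_lo, if_false]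
  rw [C.hX.gap]
  ring

theorem caseB0 (V : C.Sl) (k : Fin G) (e : C.E) (i : ι') :
    (k < V.2.1 → C.Y.D V (C.X.lo V.1, k, 0, e, i) ≤ -(C.X.δ (C.X.lo V.1) * C.u / 4)) ∧
    (V.2.1 ≤ k → C.X.δ (C.X.lo V.1) * C.u / 4 ≤ C.Y.D V (C.X.lo V.1, k, 0, e, i)) := by
  have a1 := C.δ4 (C.X.lo V.1)
  have a2 := abs_le.1 (C.ys_le V)
  have a3 := abs_le.1 (C.tm_b V.2.2.2)
  have a4 := C.u4
  have a5 := C.u0
  have e1 : C.Y.D V (C.X.lo V.1, k, 0, e, i) = (C.X.δ (C.X.lo V.1) - 1) *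
      ((((k : ℕ) : ℝ) - (V.2.1 : ℕ) + 1 / 2) * C.u - C.u ^ 3 * C.U.tm V.2.2.2 - 2 * C.ys V) -
        C.ys V := by
    rw [C.D_lo]
    simp only [dh, if_true, C.hX.fl_lo, if_false, th]
    ring
  rw [e1]
  have a6 : 0 ≤ (C.X.δ (C.X.lo V.1) - 4) * C.u := mul_nonneg (by linarith) a5.le
  constructor
  · intro h
    have h1 : ((k : ℕ) : ℝ) + 1 ≤ (V.2.1 : ℕ) := by exact_mod_cast h
    have h2 : (((k : ℕ) : ℝ) - (V.2.1 : ℕ) + 1 / 2) * C.u - C.u ^ 3 * C.U.tm V.2.2.2 -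
        2 * C.ys V ≤ -(2 / 5 * C.u) := by nlinarith [a2.1, a3.1, a4.2.1]
    have h3 := mul_le_mul_of_nonneg_left h2 (by linarith : 0 ≤ C.X.δ (C.X.lo V.1) - 1)
    nlinarith [a2.1]
  · intro h
    have h1 : ((V.2.1 : ℕ) : ℝ) ≤ (k : ℕ) := by exact_mod_cast h
    have h2 : 2 / 5 * C.u ≤ (((k : ℕ) : ℝ) - (V.2.1 : ℕ) + 1 / 2) * C.u -
        C.u ^ 3 * C.U.tm V.2.2.2 - 2 * C.ys V := by nlinarith [a2.2, a3.2, a4.2.1]
    have h3 := mul_le_mul_of_nonneg_left h2 (by linarith : 0 ≤ C.X.δ (C.X.lo V.1) - 1)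
    nlinarith [a2.2]

theorem caseB12 (V : C.Sl) (k : Fin G) (e : C.E) (i : ι') :
    C.X.δ (C.X.lo V.1) / 8 ≤ C.Y.D V (C.X.lo V.1, k, 1, e, i) ∧
    C.Y.D V (C.X.lo V.1, k, 2, e, i) ≤ -(C.X.δ (C.X.lo V.1) / 8) := by
  have a1 := C.δ4 (C.X.lo V.1)
  have a2 := abs_le.1 (C.ys_le V)
  have a3 := abs_le.1 (C.th_le V)
  have a5 := C.u1
  have a6 := mul_le_mul_of_nonneg_left a3.1 (by linarith : 0 ≤ C.X.δ (C.X.lo V.1) - 1)
  have a7 := mul_le_mul_of_nonneg_left a3.2 (by linarith : 0 ≤ C.X.δ (C.X.lo V.1) - 1)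
  rw [C.D_lo, C.D_lo]
  simp only [dh, C.not_has_lo, if_false, if_true]
  rw [if_neg (by decide), if_neg (by decide), if_neg (by decide)]
  constructor <;> linarith [a2.1, a2.2]

theorem D_hi' (V : C.Sl) (k : Fin G) (j : Fin 3) (e : C.E) (i : ι') :
    C.Y.D V (C.X.hi V.1, k, j, e, i) =
      C.ds (C.X.hi V.1, k, j, e, i) * (C.X.tm V.1 - C.piv (C.X.hi V.1) k + C.th V) +
        C.dh (C.X.hi V.1, k, j, e, i) + C.th V - C.ys V := by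
  rw [C.D_eq]
  simp only [Dat.D_hi]
  ring

theorem D_hi0 (V : C.Sl) (k : Fin G) (e : C.E) (i : ι') :
    C.Y.D V (C.X.hi V.1, k, 0, e, i) = (((V.2.1 : ℕ) : ℝ) - (k : ℕ)) * C.u +
      C.u ^ 2 * ((((V.2.2.1 : ℤ) - ((e : ℤ) + C.s i * (k : ℕ)) : ℤ) : ℝ) - 1 / 2) +
        C.u ^ 3 * C.U.tm V.2.2.2 + C.u ^ 4 * C.Yu V.2.2.2 := by
  rw [C.D_hi']
  simp only [ds, dh, if_true, C.hX.fl_hi, ite_self, th, ys]
  push_cast
  ring

theorem caseC0 (V : C.Sl) (k : Fin G) (e : C.E) (i : ι') :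
    (V.2.1 < k → C.Y.D V (C.X.hi V.1, k, 0, e, i) ≤ -(C.u / 2)) ∧
    (k < V.2.1 → C.u / 2 ≤ C.Y.D V (C.X.hi V.1, k, 0, e, i)) := by
  have a1 := abs_le.1 (C.g_le V.2.2.1)
  have a2 := abs_le.1 (C.e_le e)
  have a3 := abs_le.1 (C.usk i k)
  have a4 := C.u4
  have a5 := C.u0
  have a6 := abs_le.1 (C.tm_b V.2.2.2)
  have a7 := abs_le.1 (C.Yu_le V.2.2.2)
  have a8 := C.u1
  have e1 : C.u ^ 2 * ((((V.2.2.1 : ℤ) - ((e : ℤ) + C.s i * (k : ℕ)) : ℤ) : ℝ) - 1 / 2) =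
      C.u * (C.u * ((V.2.2.1 : ℤ) : ℝ) - C.u * ((e : ℤ) : ℝ) - C.u * (C.s i * (k : ℕ)) -
        C.u / 2) := by
    push_cast; ring
  have b1 : C.u * (C.u * ((V.2.2.1 : ℤ) : ℝ) - C.u * ((e : ℤ) : ℝ) - C.u * (C.s i * (k : ℕ)) -
      C.u / 2) ≤ C.u * (1 / 20) :=
    mul_le_mul_of_nonneg_left (by linarith [a1.2, a2.1, a3.1]) a5.le
  have b2 : C.u * (-(1 / 20)) ≤ C.u * (C.u * ((V.2.2.1 : ℤ) : ℝ) - C.u * ((e : ℤ) : ℝ) -
      C.u * (C.s i * (k : ℕ)) - C.u / 2) :=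
    mul_le_mul_of_nonneg_left (by linarith [a1.1, a2.2, a3.2]) a5.le
  rw [C.D_hi0, e1]
  constructor
  · intro h
    have h1 : ((V.2.1 : ℕ) : ℝ) - (k : ℕ) ≤ -1 := by
      have : ((V.2.1 : ℕ) : ℝ) + 1 ≤ (k : ℕ) := by exact_mod_cast h
      linarith
    have h2 := mul_le_mul_of_nonneg_right h1 a5.le
    linarith [a4.2.1, a6.2, a7.2]
  · intro h
    have h1 : 1 ≤ ((V.2.1 : ℕ) : ℝ) - (k : ℕ) := by
      have : ((k : ℕ) : ℝ) + 1 ≤ (V.2.1 : ℕ) := by exact_mod_cast h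
      linarith
    have h2 := mul_le_mul_of_nonneg_right h1 a5.le
    linarith [a4.2.1, a6.1, a7.1]

theorem caseC0' (V : C.Sl) (e : C.E) (i : ι') :
    ((V.2.2.1 : ℤ) ≤ (e : ℤ) + C.s i * (V.2.1 : ℕ) →
      C.Y.D V (C.X.hi V.1, V.2.1, 0, e, i) ≤ -(C.u ^ 2 / 4)) ∧
    ((e : ℤ) + C.s i * (V.2.1 : ℕ) < (V.2.2.1 : ℤ) →
      C.u ^ 2 / 4 ≤ C.Y.D V (C.X.hi V.1, V.2.1, 0, e, i)) := by
  have a5 := pow_pos C.u0 2
  have a6 := abs_le.1 (C.tm_b V.2.2.2)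
  have a7 := abs_le.1 (C.Yu_le V.2.2.2)
  rw [C.D_hi0, sub_self, zero_mul, zero_add]
  constructor
  · intro h
    have h1 : ((((V.2.2.1 : ℤ) - ((e : ℤ) + C.s i * (V.2.1 : ℕ)) : ℤ) : ℝ)) ≤ 0 := by
      exact_mod_cast sub_nonpos.2 h
    have h2 := mul_le_mul_of_nonneg_left h1 a5.le
    linarith [a6.2, a7.2]
  · intro h
    have h1 : (1 : ℝ) ≤ (((V.2.2.1 : ℤ) - ((e : ℤ) + C.s i * (V.2.1 : ℕ)) : ℤ) : ℝ) := by
      exact_mod_cast (by omega : (1 : ℤ) ≤ (V.2.2.1 : ℤ) - ((e : ℤ) + C.s i * (V.2.1 : ℕ)))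
    have h2 := mul_le_mul_of_nonneg_left h1 a5.le
    linarith [a6.1, a7.1]

theorem caseCn (V : C.Sl) (k : Fin G) (e : C.E) (i : ι') (h : ¬ C.has (C.X.hi V.1) k) :
    1 / 2 ≤ C.Y.D V (C.X.hi V.1, k, 1, e, i) ∧ C.Y.D V (C.X.hi V.1, k, 2, e, i) ≤ -(1 / 2) := by
  have a1 := C.δ4 (C.X.hi V.1)
  have a2 := abs_le.1 (C.ys_le V)
  have a3 := abs_le.1 (C.th_le V)
  have a5 := C.u1
  rw [C.D_hi', C.D_hi']
  simp only [ds, dh, h, if_false, if_true]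
  rw [if_neg (by decide), if_neg (by decide), if_neg (by decide)]
  constructor <;> linarith [a2.1, a2.2, a3.1, a3.2]

/-- two slots on the same line are far apart -/
theorem sep {v w : W} (h : C.X.hi w = C.X.hi v) (hne : w ≠ v) : 1 ≤ |C.X.tm v - C.X.tm w| := by
  have h1 : C.X.lo w ≠ C.X.lo v := fun e => hne (C.hX.inj _ _ h e)
  have h2 : C.X.lo w ≠ C.X.hi v := fun e => C.hX.fl_lo w (e ▸ C.hX.fl_hi v)
  have h3 := C.hM.mar v _ h1 h2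
  have h4 := C.hX.meet w
  have h5 := C.hX.gap w
  have h6 := C.hX.δ_pos (C.X.lo w)
  have h7 : C.X.D v (C.X.lo w) = -(C.X.δ (C.X.lo w) * (C.X.tm v - C.X.tm w)) := by
    unfold Dat.D at h4 ⊢
    rw [← h]
    linear_combination h4 - (C.X.tm v - C.X.tm w) * h5
  rw [h7, abs_neg, abs_mul, abs_of_pos h6] at h3
  have h8 := abs_nonneg (C.X.σ (C.X.lo w) - C.X.σ (C.X.hi v))
  exact le_of_mul_le_mul_left (by linarith) h6

theorem sep' (v : W) {k : Fin G} (h : C.has (C.X.hi v) k) (hk : k ≠ C.X.ix v) :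
    1 ≤ |C.X.tm v - C.piv (C.X.hi v) k| := by
  obtain ⟨w, e1, e2⟩ := h
  rw [← e1, ← e2, C.piv_self]
  exact C.sep e1 fun e => hk (by rw [← e2, e])

theorem caseCh (V : C.Sl) (k : Fin G) (e : C.E) (i : ι') (h : C.has (C.X.hi V.1) k) :
    (1 ≤ C.X.tm V.1 - C.piv (C.X.hi V.1) k →
      C.Y.D V (C.X.hi V.1, k, 1, e, i) ≤ -((C.X.tm V.1 - C.piv (C.X.hi V.1) k) / 2) ∧
      (C.X.tm V.1 - C.piv (C.X.hi V.1) k) / 2 ≤ C.Y.D V (C.X.hi V.1, k, 2, e, i)) ∧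
    (C.X.tm V.1 - C.piv (C.X.hi V.1) k ≤ -1 →
      -((C.X.tm V.1 - C.piv (C.X.hi V.1) k) / 2) ≤ C.Y.D V (C.X.hi V.1, k, 1, e, i) ∧
      C.Y.D V (C.X.hi V.1, k, 2, e, i) ≤ (C.X.tm V.1 - C.piv (C.X.hi V.1) k) / 2) := by
  have a2 := abs_le.1 (C.ys_le V)
  have a3 := abs_le.1 (C.th_le V)
  have a5 := C.u1
  have a6 := abs_le.1 (C.f_le (C.s_le i))
  have a7 := abs_le.1 (C.dh_b e i)
  rw [C.D_hi', C.D_hi']
  simp only [ds, dh, h, if_true]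
  rw [if_neg (by decide), if_neg (by decide), if_neg (by decide), if_neg (by decide),
    if_neg (by decide), if_neg (by decide)]
  generalize C.X.tm V.1 - C.piv (C.X.hi V.1) k = Δ
  constructor
  · intro h1
    have b1 := mul_le_mul_of_nonneg_right a6.2 (by linarith [a3.1] : 0 ≤ Δ + C.th V)
    constructor <;> linarith [a2.1, a2.2, a3.1, a3.2, a7.1, a7.2]
  · intro h1
    have b1 := mul_le_mul_of_nonneg_right a6.2 (by linarith [a3.2] : 0 ≤ -(Δ + C.th V))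
    constructor <;> linarith [a2.1, a2.2, a3.1, a3.2, a7.1, a7.2]

theorem caseC2 (V : C.Sl) (e : C.E) (i : ι') :
    C.Y.D V (C.X.hi V.1, C.X.ix V.1, 2, e, i) ≤ -(1 / 8) := by
  have a2 := abs_le.1 (C.ys_le V)
  have a3 := abs_le.1 (C.th_le V)
  have a5 := C.u1
  rw [C.D_hi']
  simp only [ds, dh, C.has_self, if_true, C.piv_self]
  rw [if_neg (by decide), if_neg (by decide), if_neg (by decide), if_neg (by decide)]
  linarith [a2.1, a3.2]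

theorem D_own (V : C.Sl) (e : C.E) (i : ι') :
    C.Y.D V (C.X.hi V.1, C.X.ix V.1, 1, e, i) =
      (C.u ^ 2 * ((((e : ℤ) + C.s i * (V.2.1 : ℕ) - V.2.2.1 : ℤ)) : ℝ) +
        C.u ^ 4 * C.U.D V.2.2.2 i) / (1 + 2 * (C.u * C.s i)) := by
  rw [C.D_hi', C.piv_self, sub_self, zero_add, C.dev_own]
  ring

theorem UD_le (ω : W') (i : ι') : |C.u ^ 4 * C.U.D ω i| ≤ C.u ^ 2 / 2500 := by
  have h1 := abs_le.1 (C.sm (C.hI.σ_le (C.U.hi ω)))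
  have h1' := abs_le.1 (C.sm (C.hI.σ_le i))
  have h2 := C.sm (C.hI.tm_le ω)
  have h3 := abs_le.1 (C.sm (C.hI.c_le (C.U.hi ω)))
  have h3' := abs_le.1 (C.sm (C.hI.c_le i))
  have h4 := C.u1
  have h5 := C.u0
  have e1 : C.u ^ 4 * C.U.D ω i = C.u ^ 2 * ((C.u * C.U.σ i - C.u * C.U.σ (C.U.hi ω)) *
      (C.u * C.U.tm ω) + C.u * (C.u * C.U.c i - C.u * C.U.c (C.U.hi ω))) := by
    unfold Dat.D; ring
  have h6 : |(C.u * C.U.σ i - C.u * C.U.σ (C.U.hi ω)) * (C.u * C.U.tm ω)| ≤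
      2 / 100 * (1 / 100) := by
    rw [abs_mul]
    exact mul_le_mul (abs_le.2 ⟨by linarith [h1.2, h1'.1], by linarith [h1.1, h1'.2]⟩) h2
      (abs_nonneg _) (by norm_num)
  have h7 : |C.u * (C.u * C.U.c i - C.u * C.U.c (C.U.hi ω))| ≤ 1 / 100 * (2 / 100) := by
    rw [abs_mul, abs_of_pos h5]
    exact mul_le_mul h4 (abs_le.2 ⟨by linarith [h3.2, h3'.1], by linarith [h3.1, h3'.2]⟩)
      (abs_nonneg _) (by norm_num)
  rw [e1, abs_mul, abs_of_pos (pow_pos h5 2)]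
  have h8 := (abs_add_le _ _).trans (add_le_add h6 h7)
  nlinarith [pow_pos h5 2]

theorem caseOwn (V : C.Sl) (e : C.E) (i : ι') :
    ((e : ℤ) + C.s i * (V.2.1 : ℕ) < (V.2.2.1 : ℤ) →
      C.Y.D V (C.X.hi V.1, C.X.ix V.1, 1, e, i) ≤ -(C.u ^ 2 / 4)) ∧
    ((V.2.2.1 : ℤ) < (e : ℤ) + C.s i * (V.2.1 : ℕ) →
      C.u ^ 2 / 4 ≤ C.Y.D V (C.X.hi V.1, C.X.ix V.1, 1, e, i)) := by
  have a5 := pow_pos C.u0 2
  have a6 := abs_le.1 (C.UD_le V.2.2.2 i)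
  have a7 := C.den (C.s_le i)
  have a8 := mul_le_mul_of_nonneg_left a7.2 a5.le
  rw [C.D_own]
  constructor
  · intro h
    have h1 : ((((e : ℤ) + C.s i * (V.2.1 : ℕ) - V.2.2.1 : ℤ)) : ℝ) ≤ -1 := by
      exact_mod_cast (by omega : (e : ℤ) + C.s i * (V.2.1 : ℕ) - V.2.2.1 ≤ -1)
    have h2 := mul_le_mul_of_nonneg_left h1 a5.le
    rw [div_le_iff₀ (by linarith [a7.1])]
    linarith [a6.2]
  · intro h
    have h1 : (1 : ℝ) ≤ ((((e : ℤ) + C.s i * (V.2.1 : ℕ) - V.2.2.1 : ℤ)) : ℝ) := by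
      exact_mod_cast (by omega : 1 ≤ (e : ℤ) + C.s i * (V.2.1 : ℕ) - V.2.2.1)
    have h2 := mul_le_mul_of_nonneg_left h1 a5.le
    rw [le_div_iff₀ (by linarith [a7.1])]
    linarith [a6.1]

theorem caseRow (V : C.Sl) (e : C.E) (i : ι')
    (h : (e : ℤ) + C.s i * (V.2.1 : ℕ) = (V.2.2.1 : ℤ)) :
    C.Y.D V (C.X.hi V.1, C.X.ix V.1, 1, e, i) =
      C.u ^ 4 * C.U.D V.2.2.2 i / (1 + 2 * (C.u * C.s i)) := by
  rw [C.D_own, h, sub_self, Int.cast_zero, mul_zero, zero_add]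

end Ctx

end Vale.Agent.P065
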