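import Vale.Agent.P065.StepB

/-! P065: the product step, margins and the number of lines below a new slot. -/

namespace Vale.Agent.P065

open Classical

namespace Ctx

variable {ι W ι' W' : Type} [Fintype ι] [Fintype ι'] {G G' : ℕ} (C : Ctx ι W ι' W' G G')

/-- an earlier slot on the same line -/
def P (w : W) (k : Fin G) : Prop := C.has (C.X.hi w) k ∧ C.piv (C.X.hi w) k < C.X.tm w

/-- the lines below a new slot -/
def bel (V : C.Sl) (I : C.Li) : Prop :=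
  if I.1 = C.X.hi V.1 then
    (if I.2.2.1 = 0 then V.2.1 < I.2.1 ∨
        (I.2.1 = V.2.1 ∧ (V.2.2.1 : ℤ) ≤ (I.2.2.2.1 : ℤ) + C.s I.2.2.2.2 * (V.2.1 : ℕ))
      else if I.2.2.1 = 1 then
        (if I.2.1 = C.X.ix V.1 then (I.2.2.2.1 : ℤ) + C.s I.2.2.2.2 * (V.2.1 : ℕ) < V.2.2.1 ∨
          ((I.2.2.2.1 : ℤ) + C.s I.2.2.2.2 * (V.2.1 : ℕ) = V.2.2.1 ∧ C.U.D V.2.2.2 I.2.2.2.2 < 0)
        else C.P V.1 I.2.1)
      else I.2.1 = C.X.ix V.1 ∨ ¬ C.P V.1 I.2.1)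
  else if I.1 = C.X.lo V.1 then (I.2.2.1 = 0 ∧ I.2.1 < V.2.1) ∨ I.2.2.1 = 2
  else C.X.D V.1 I.1 < 0

/-- the required margin -/
noncomputable def μ (V : C.Sl) (I : C.Li) : ℝ :=
  C.u ^ 4 * (|C.Y.σ I - C.Y.σ (C.Y.hi V)| + C.Y.δ I)

theorem μ_pos (V : C.Sl) (I : C.Li) : 0 < C.μ V I := by
  have h1 := C.u4.2.2
  have h2 : 0 < C.Y.δ I := h1.trans_le (C.nδ_ge _)
  unfold μ
  positivity

theorem μ_le (V : C.Sl) (I : C.Li) :
    C.μ V I ≤ C.u ^ 4 * (|C.X.σ I.1 - C.X.σ (C.X.hi V.1)| + 4) := by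
  refine mul_le_mul_of_nonneg_left ?_ C.u4.2.2.le
  have h1 := abs_le.1 (C.ds_le I)
  have h2 := abs_le.1 (C.ds_le (C.Y.hi V))
  have h3 : C.Y.δ I ≤ 1 := C.nδ_one _
  have h4 : C.Y.σ I - C.Y.σ (C.Y.hi V) =
    (C.X.σ I.1 - C.X.σ (C.X.hi V.1)) + (C.ds I - C.ds (C.Y.hi V)) := by
    simp only [Y, mk']; ring
  have h5 : |C.ds I - C.ds (C.Y.hi V)| ≤ 3 := abs_le.2 ⟨by linarith [h1.1, h2.2],
    by linarith [h1.2, h2.1]⟩
  rw [h4]
  linarith [abs_add_le (C.X.σ I.1 - C.X.σ (C.X.hi V.1)) (C.ds I - C.ds (C.Y.hi V))]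

theorem lo_ne_hi (w w' : W) : C.X.lo w ≠ C.X.hi w' := fun e => C.hX.fl_lo w (e ▸ C.hX.fl_hi w')

theorem eq_mk' (V : C.Sl) {e : C.E} {i : ι'}
    (h : (e : ℤ) + C.s i * (V.2.1 : ℕ) = (V.2.2.1 : ℤ)) :
    (C.X.hi V.1, C.X.ix V.1, (1 : Fin 3), e, i) = C.mk' V i := by
  have : e = C.row V.2.2.1 V.2.1 i := Subtype.ext (by simp only [row]; omega)
  rw [this]; rfl

theorem geomRow (V : C.Sl) (e : C.E) (i : ι')
    (h : (e : ℤ) + C.s i * (V.2.1 : ℕ) = (V.2.2.1 : ℤ)) (h1 : i ≠ C.U.lo V.2.2.2)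
    (h2 : i ≠ C.U.hi V.2.2.2) :
    C.μ V (C.X.hi V.1, C.X.ix V.1, 1, e, i) ≤ C.u ^ 4 * |C.U.D V.2.2.2 i| / 2 ∧
      C.u ^ 4 * |C.U.D V.2.2.2 i| / 2 ≤ |C.Y.D V (C.X.hi V.1, C.X.ix V.1, 1, e, i)| ∧
      1 ≤ |C.U.D V.2.2.2 i| := by
  have a1 := C.hI.mar V.2.2.2 i h1 h2
  rw [C.hs, C.hs, C.hdl] at a1
  have a2 := C.f_lip (C.s_le i) (C.s_le (C.U.hi V.2.2.2))
  have a3 := C.nδ_le i
  have a4 := C.u4.2.2
  have a5 := C.den (C.s_le i)
  have a6 := C.dl1 i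
  have a7 := abs_nonneg ((C.s i : ℝ) - C.s (C.U.hi V.2.2.2))
  refine ⟨?_, ?_, by linarith⟩
  · have e1 : C.Y.σ (C.X.hi V.1, C.X.ix V.1, 1, e, i) - C.Y.σ (C.Y.hi V) =
        C.f (C.s i) - C.f (C.s (C.U.hi V.2.2.2)) := by
      simp only [Y, mk', ds, C.has_self, if_true]
      rw [if_neg (by decide), if_neg (by decide)]
      ring
    unfold μ
    rw [e1, mul_div_assoc]
    exact mul_le_mul_of_nonneg_left (by change _ + C.nδ i ≤ _; linarith) a4.le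
  · rw [C.caseRow V e i h, abs_div, abs_mul, abs_of_pos a4,
      abs_of_pos (by linarith [a5.1] : 0 < 1 + 2 * (C.u * C.s i))]
    exact div_le_div_of_nonneg_left (by positivity) (by linarith [a5.1]) (by linarith [a5.2])

theorem geomHi (V : C.Sl) (k : Fin G) (j : Fin 3) (e : C.E) (i : ι')
    (h1 : (C.X.hi V.1, k, j, e, i) ≠ C.Y.lo V) (h2 : (C.X.hi V.1, k, j, e, i) ≠ C.Y.hi V) :
    (C.bel V (C.X.hi V.1, k, j, e, i) →
      C.Y.D V (C.X.hi V.1, k, j, e, i) ≤ -C.μ V (C.X.hi V.1, k, j, e, i)) ∧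
    (¬ C.bel V (C.X.hi V.1, k, j, e, i) →
      C.μ V (C.X.hi V.1, k, j, e, i) ≤ C.Y.D V (C.X.hi V.1, k, j, e, i)) := by
  have a1 := C.μ_le V (C.X.hi V.1, k, j, e, i)
  simp only [sub_self, abs_zero, zero_add] at a1
  obtain ⟨a2, a3, a4⟩ := C.u4
  have a5 := C.u1
  have a6 := C.u0
  have a7 := pow_pos a6 2
  obtain rfl | rfl | rfl : j = 0 ∨ j = 1 ∨ j = 2 := by omega
  · simp only [bel, if_true]
    have b1 := C.caseC0 V k e i
    have b2 := C.caseC0' V e i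
    constructor
    · rintro (h | ⟨rfl, h⟩)
      · linarith [b1.1 h]
      · linarith [b2.1 h]
    · intro h
      rw [not_or, not_and, not_lt] at h
      rcases h.1.lt_or_eq with h3 | rfl
      · linarith [b1.2 h3]
      · linarith [b2.2 (not_le.1 (h.2 rfl))]
  · simp only [bel, if_true]
    rw [if_neg (by decide)]
    by_cases hk : k = C.X.ix V.1
    · subst hk
      rw [if_pos rfl]
      have b1 := C.caseOwn V e i
      rcases lt_trichotomy ((e : ℤ) + C.s i * (V.2.1 : ℕ)) (V.2.2.1 : ℤ) with h | h | h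
      · exact ⟨fun _ => by linarith [b1.1 h], fun h' => absurd (Or.inl h) h'⟩
      · have c1 : i ≠ C.U.lo V.2.2.2 := fun e' => h1 (by rw [C.eq_mk' V h, e']; rfl)
        have c2 : i ≠ C.U.hi V.2.2.2 := fun e' => h2 (by rw [C.eq_mk' V h, e']; rfl)
        obtain ⟨c3, c4, -⟩ := C.geomRow V e i h c1 c2
        have c5 := C.den (C.s_le i)
        have c6 := C.caseRow V e i h
        constructor
        · rintro (h' | ⟨-, h'⟩)
          · omega
          · have : C.Y.D V (C.X.hi V.1, C.X.ix V.1, 1, e, i) < 0 := by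
              rw [c6]
              exact div_neg_of_neg_of_pos (mul_neg_of_pos_of_neg a4 h') (by linarith [c5.1])
            rw [abs_of_neg this] at c4
            linarith
        · intro h'
          have c7 : 0 ≤ C.U.D V.2.2.2 i := not_lt.1 fun h'' => h' (Or.inr ⟨h, h''⟩)
          have : 0 ≤ C.Y.D V (C.X.hi V.1, C.X.ix V.1, 1, e, i) := by
            rw [c6]
            exact div_nonneg (mul_nonneg a4.le c7) (by linarith [c5.1])
          rw [abs_of_nonneg this] at c4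
          linarith
      · exact ⟨fun h' => by omega, fun _ => by linarith [b1.2 h]⟩
    · rw [if_neg hk]
      by_cases hh : C.has (C.X.hi V.1) k
      · have b1 := C.caseCh V k e i hh
        rcases le_abs'.1 (C.sep' V.1 hh hk) with h | h
        · exact ⟨fun h' => by linarith [h'.2], fun _ => by linarith [(b1.2 h).1]⟩
        · exact ⟨fun _ => by linarith [(b1.1 h).1], fun h' => absurd ⟨hh, by linarith⟩ h'⟩
      · exact ⟨fun h' => absurd h'.1 hh, fun _ => by linarith [(C.caseCn V k e i hh).1]⟩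
  · simp only [bel, if_true]
    rw [if_neg (by decide), if_neg (by decide)]
    by_cases hk : k = C.X.ix V.1
    · subst hk
      exact ⟨fun _ => by linarith [C.caseC2 V e i], fun h' => absurd (Or.inl rfl) h'⟩
    · by_cases hh : C.has (C.X.hi V.1) k
      · have b1 := C.caseCh V k e i hh
        rcases le_abs'.1 (C.sep' V.1 hh hk) with h | h
        · exact ⟨fun _ => by linarith [(b1.2 h).2],
            fun h' => absurd (Or.inr fun h'' => by linarith [h''.2]) h'⟩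
        · exact ⟨fun h' => absurd ⟨hh, by linarith⟩ (h'.resolve_left hk),
            fun _ => by linarith [(b1.1 h).2]⟩
      · exact ⟨fun _ => by linarith [(C.caseCn V k e i hh).2],
          fun h' => absurd (Or.inr fun h'' => hh h''.1) h'⟩

theorem geomLo (V : C.Sl) (k : Fin G) (j : Fin 3) (e : C.E) (i : ι') :
    (C.bel V (C.X.lo V.1, k, j, e, i) →
      C.Y.D V (C.X.lo V.1, k, j, e, i) ≤ -C.μ V (C.X.lo V.1, k, j, e, i)) ∧
    (¬ C.bel V (C.X.lo V.1, k, j, e, i) →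
      C.μ V (C.X.lo V.1, k, j, e, i) ≤ C.Y.D V (C.X.lo V.1, k, j, e, i)) := by
  have a1 := C.μ_le V (C.X.lo V.1, k, j, e, i)
  have a0 := C.δ4 (C.X.lo V.1)
  have a8 : |C.X.σ (C.X.lo V.1) - C.X.σ (C.X.hi V.1)| = C.X.δ (C.X.lo V.1) := by
    rw [C.hX.gap, sub_add_cancel_left, abs_neg, abs_of_pos (by linarith)]
  simp only [a8] at a1
  obtain ⟨a2, a3, a4⟩ := C.u4
  have a5 := C.u1
  have a6 := C.u0
  have a7 : C.u ^ 4 * (C.X.δ (C.X.lo V.1) + 4) ≤ C.X.δ (C.X.lo V.1) * C.u / 4 := by nlinarith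
  have a9 : C.X.δ (C.X.lo V.1) * C.u / 4 ≤ C.X.δ (C.X.lo V.1) / 8 := by nlinarith
  have b1 := C.caseB0 V k e i
  have b2 := C.caseB12 V k e i
  simp only [bel, if_neg (C.lo_ne_hi V.1 V.1), if_true]
  obtain rfl | rfl | rfl : j = 0 ∨ j = 1 ∨ j = 2 := by omega
  · constructor
    · rintro (h | h)
      · linarith [b1.1 h.2]
      · exact absurd h (by decide)
    · intro h
      linarith [b1.2 (not_lt.1 fun h' => h (Or.inl ⟨rfl, h'⟩))]
  · constructor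
    · rintro (h | h)
      · exact absurd h.1 (by decide)
      · exact absurd h (by decide)
    · intro _
      linarith [b2.1]
  · exact ⟨fun _ => by linarith [b2.2], fun h => absurd (Or.inr rfl) h⟩

theorem geom (V : C.Sl) (I : C.Li) (h1 : I ≠ C.Y.lo V) (h2 : I ≠ C.Y.hi V) :
    (C.bel V I → C.Y.D V I ≤ -C.μ V I) ∧ (¬ C.bel V I → C.μ V I ≤ C.Y.D V I) := by
  obtain ⟨i0, k, j, e, i⟩ := I
  by_cases h3 : i0 = C.X.hi V.1
  · subst h3
    exact C.geomHi V k j e i h1 h2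
  by_cases h4 : i0 = C.X.lo V.1
  · subst h4
    exact C.geomLo V k j e i
  have a1 := C.μ_le V (i0, k, j, e, i)
  have a2 := C.caseA V (i0, k, j, e, i) h4 h3
  have a3 := C.hM.mar V.1 i0 h4 h3
  have a4 := C.δ4 i0
  obtain ⟨a5, a6, a7⟩ := C.u4
  have a8 := C.u1
  have a9 := abs_nonneg (C.X.σ i0 - C.X.σ (C.X.hi V.1))
  have b1 : C.u ^ 4 * (|C.X.σ i0 - C.X.σ (C.X.hi V.1)| + 4) ≤ |C.X.D V.1 i0| / 4 := by nlinarith
  simp only [bel, if_neg h3, if_neg h4] at a1 a2 ⊢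
  rw [abs_le] at a2
  constructor
  · intro h
    rw [abs_of_neg h] at a2 b1
    linarith [a2.2]
  · intro h
    rw [abs_of_nonneg (not_lt.1 h)] at a2 b1
    linarith [a2.1]

theorem D_mk' (V : C.Sl) (i : ι') :
    C.Y.D V (C.mk' V i) = C.u ^ 4 * C.U.D V.2.2.2 i / (1 + 2 * (C.u * C.s i)) :=
  C.caseRow V _ i (by simp only [row]; ring)

theorem meet (V : C.Sl) : C.Y.D V (C.Y.lo V) = 0 := by
  change C.Y.D V (C.mk' V _) = 0
  rw [C.D_mk', C.hU.meet, mul_zero, zero_div]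

theorem not_bel (V : C.Sl) (i : ι') (h : C.U.D V.2.2.2 i = 0) : ¬ C.bel V (C.mk' V i) := by
  simp only [bel, mk', if_true, row, h]
  rw [if_neg (by decide)]
  simp

theorem neg_iff (V : C.Sl) (I : C.Li) : C.Y.D V I < 0 ↔ C.bel V I := by
  by_cases h1 : I = C.Y.lo V
  · subst h1
    rw [C.meet]
    exact iff_of_false (lt_irrefl _) (C.not_bel V _ (C.hU.meet _))
  by_cases h2 : I = C.Y.hi V
  · subst h2
    rw [Dat.D_hi]
    exact iff_of_false (lt_irrefl _) (C.not_bel V _ (Dat.D_hi _ _))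
  have h3 := C.geom V I h1 h2
  have h4 := C.μ_pos V I
  exact ⟨fun h => by_contra fun h' => by linarith [h3.2 h'], fun h => by linarith [h3.1 h]⟩

theorem mar (V : C.Sl) (I : C.Li) (h1 : I ≠ C.Y.lo V) (h2 : I ≠ C.Y.hi V) :
    C.μ V I ≤ |C.Y.D V I| := by
  have h3 := C.geom V I h1 h2
  by_cases h : C.bel V I
  · linarith [h3.1 h, neg_le_abs (C.Y.D V I)]
  · exact (h3.2 h).trans (le_abs_self _)

theorem cone (V V' : C.Sl) (h : C.Y.hi V' ≠ C.Y.hi V) :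
    C.u ^ 4 * |C.Y.tm V - C.Y.tm V'| ≤ |C.Y.D V (C.Y.hi V')| := by
  have a1 : |C.Y.tm V - C.Y.tm V'| ≤ |C.X.tm V.1 - C.X.tm V'.1| + 1 / 25 := by
    have b1 := abs_le.1 (C.th_le V)
    have b2 := abs_le.1 (C.th_le V')
    have b3 : |C.th V - C.th V'| ≤ 1 / 25 :=
      abs_le.2 ⟨by linarith [b1.1, b2.2], by linarith [b1.2, b2.1]⟩
    have b4 : C.Y.tm V - C.Y.tm V' = (C.X.tm V.1 - C.X.tm V'.1) + (C.th V - C.th V') := by
      simp only [Y]; ring
    rw [b4]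
    exact (abs_add_le _ _).trans (by linarith)
  obtain ⟨a2, a3, a4⟩ := C.u4
  have a5 := C.u1
  have a6 := C.u0
  refine (mul_le_mul_of_nonneg_left a1 a4.le).trans ?_
  have a7 := abs_nonneg (C.X.tm V.1 - C.X.tm V'.1)
  by_cases h1 : C.X.hi V'.1 = C.X.hi V.1
  · by_cases h2 : V'.1 = V.1
    · have e1 : C.Y.hi V' = (C.X.hi V.1, C.X.ix V.1, 1,
          C.row V'.2.2.1 V'.2.1 (C.U.hi V'.2.2.2), C.U.hi V'.2.2.2) := by
        rw [← h2]; rfl
      rw [e1] at h ⊢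
      rw [h2, sub_self, abs_zero, zero_add]
      have b1 := C.caseOwn V (C.row V'.2.2.1 V'.2.1 (C.U.hi V'.2.2.2)) (C.U.hi V'.2.2.2)
      rcases lt_trichotomy ((C.row V'.2.2.1 V'.2.1 (C.U.hi V'.2.2.2) : ℤ) +
        C.s (C.U.hi V'.2.2.2) * (V.2.1 : ℕ)) (V.2.2.1 : ℤ) with h3 | h3 | h3
      · exact le_abs'.2 (Or.inl (by linarith [b1.1 h3]))
      · have c1 : C.U.hi V'.2.2.2 ≠ C.U.lo V.2.2.2 :=
          fun e' => C.hU.fl_lo _ (e' ▸ C.hU.fl_hi V'.2.2.2)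
        have c2 : C.U.hi V'.2.2.2 ≠ C.U.hi V.2.2.2 :=
          fun e' => h (by rw [C.eq_mk' V h3, e']; rfl)
        obtain ⟨-, c4, c5⟩ := C.geomRow V _ _ h3 c1 c2
        nlinarith
      · exact le_abs'.2 (Or.inr (by linarith [b1.2 h3]))
    · have e1 : C.Y.hi V' = (C.X.hi V.1, C.X.ix V'.1, 1,
          C.row V'.2.2.1 V'.2.1 (C.U.hi V'.2.2.2), C.U.hi V'.2.2.2) := by
        rw [← h1]; rfl
      have b1 := C.caseCh V (C.X.ix V'.1) (C.row V'.2.2.1 V'.2.1 (C.U.hi V'.2.2.2))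
        (C.U.hi V'.2.2.2) (h1 ▸ C.has_self V'.1)
      have b2 : C.piv (C.X.hi V.1) (C.X.ix V'.1) = C.X.tm V'.1 := by rw [← h1, C.piv_self]
      rw [b2] at b1
      rw [e1]
      have b3 := C.sep h1 h2
      have b4 : C.u ^ 4 * (|C.X.tm V.1 - C.X.tm V'.1| + 1 / 25) ≤
        |C.X.tm V.1 - C.X.tm V'.1| / 2 := by nlinarith
      refine b4.trans ?_
      rcases le_abs'.1 b3 with h3 | h3
      · rw [abs_of_neg (by linarith)]
        exact le_abs'.2 (Or.inr (by linarith [(b1.2 h3).1]))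
      · rw [abs_of_pos (by linarith)]
        exact le_abs'.2 (Or.inl (by linarith [(b1.1 h3).1]))
  · have b0 : C.X.hi V'.1 ≠ C.X.lo V.1 := (C.lo_ne_hi _ _).symm
    have b1 := C.caseA V (C.Y.hi V') b0 h1
    have b2 := C.hM.cone V.1 V'.1 h1
    have b3 := C.hM.mar V.1 _ b0 h1
    have b4 := C.δ4 (C.X.hi V'.1)
    have b5 := abs_nonneg (C.X.σ (C.X.hi V'.1) - C.X.σ (C.X.hi V.1))
    change |C.Y.D V (C.Y.hi V') - C.X.D V.1 (C.X.hi V'.1)| ≤
      3 / 4 * |C.X.D V.1 (C.X.hi V'.1)| at b1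
    have b6 := abs_sub_abs_le_abs_sub (C.X.D V.1 (C.X.hi V'.1)) (C.Y.D V (C.Y.hi V'))
    rw [abs_sub_comm] at b6
    nlinarith

end Ctx

end Vale.Agent.P065
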