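import Vale.Agent.P065.Norm
import Vale.Agent.P065.Base
import Vale.Agent.P065.Step

/-! P065: towers of product steps. -/

namespace Vale.Agent.P065

/-- a configuration with gain `2 ^ k` and size `2 ^ z` -/
def TowerGood (g k z : ℕ) : Prop :=
  ∃ (ι W : Type) (_ : Fintype ι) (_ : Fintype W) (G β : ℕ) (X : Dat ι W G), X.Q β ∧
    X.M 1 1 (2 ^ z) ∧ 1 ≤ Fintype.card ι ∧ Fintype.card ι ≤ 2 ^ z ∧ 1 ≤ G ∧ G ≤ 2 ^ (g * k) ∧
    6 * 2 ^ k * Fintype.card ι ≤ Fintype.card W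

theorem TowerGood.mono {g k z z' : ℕ} (h : TowerGood g k z) (hz : z ≤ z') : TowerGood g k z' := by
  obtain ⟨ι, W, _, _, G, β, X, h1, h2, h3, h4, h5⟩ := h
  exact ⟨ι, W, _, _, G, β, X, h1, h2.mono one_pos one_pos (pow_le_pow_right₀ one_le_two hz), h3,
    h4.trans (Nat.pow_le_pow_right two_pos hz), h5⟩

theorem towerAux_base : ∃ g z, 1 ≤ z ∧ TowerGood g 1 z := by
  obtain ⟨ι, W, _, _, G, β, X, h1, h2, h3, h4⟩ := exists_base
  obtain ⟨τ, ε, Z, a1, a2, _, a4⟩ := exists_M h1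
  obtain ⟨Y, b1, b2⟩ := rescale h1 a4 a1 a2 one_pos one_pos
  obtain ⟨z, hz⟩ := pow_unbounded_of_one_lt Z (one_lt_two (α := ℝ))
  refine ⟨G, z + Fintype.card ι, by omega, ι, W, ‹_›, ‹_›, G, β, Y, b1,
    b2.mono one_pos one_pos (hz.le.trans (pow_le_pow_right₀ one_le_two (by omega))), h2,
    Nat.lt_two_pow_self.le.trans (Nat.pow_le_pow_right two_pos (by omega)), h3, ?_, by omega⟩
  rw [mul_one]
  exact Nat.lt_two_pow_self.le

theorem towerAux_round {ι W : Type} [Fintype ι] {G β z : ℕ} {X : Dat ι W G} (h : X.Q β)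
    (hM : X.M 1 1 (2 ^ z)) : ∃ X' : Dat ι W G, X'.Q β ∧ X'.I (40 * (2 ^ z) ^ 2) :=
  round_slopes h hM (one_le_pow₀ one_le_two) (by push_cast; exact le_rfl)

theorem TowerGood.step {g k z k' z' : ℕ} (h : TowerGood g k z) (h' : TowerGood g k' z') :
    TowerGood g (k + k') (z + 9 * (13 + g * k + 2 * z')) := by
  obtain ⟨ι, W, _, _, G, β, X, h1, h2, h3, h4, h5, h6, h7⟩ := h
  obtain ⟨ι', W', _, _, G', β', U, u1, u2, u3, u4, u5, u6, u7⟩ := h'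
  obtain ⟨X', a1, a2⟩ := rescale h1 h2 one_pos one_pos one_pos four_pos
  obtain ⟨U', b1, b2⟩ := towerAux_round u1 u2
  have hp : 1 ≤ 2 ^ z' := Nat.one_le_two_pow
  have hy : 100 * G * (40 * (2 ^ z') ^ 2) ≤ 2 ^ (13 + g * k + 2 * z') := by
    rw [pow_add, pow_add, mul_comm 2 z', pow_mul 2 z']
    nlinarith [Nat.mul_le_mul_right ((2 ^ z') ^ 2) h6]
  have hm2 : 2 ^ z' ≤ 40 * (2 ^ z') ^ 2 := by nlinarith
  generalize 40 * (2 ^ z') ^ 2 = m at b2 hy hm2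
  obtain ⟨ι₂, W₂, _, _, Y, τ, c1, c2, c3, c4, c5⟩ :=
    Vale.Agent.P065.step a1 a2 b1 b2 h5 (hp.trans hm2) (one_le_pow₀ one_le_two)
  obtain ⟨Y', d1, d2⟩ := rescale c2 c3 c1 c1 one_pos one_pos
  have hy9 : (100 * G * m) ^ 9 ≤ 2 ^ (9 * (13 + g * k + 2 * z')) := by
    rw [mul_comm 9, pow_mul]
    exact Nat.pow_le_pow_left hy 9
  have hGm : 1 ≤ G * m := Nat.mul_pos h5 (hp.trans hm2)
  refine ⟨ι₂, W₂, ‹_›, ‹_›, _, _, Y', d1, d2.mono one_pos one_pos ?_, ?_, ?_, Nat.mul_pos h5 u5, ?_, ?_⟩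
  · rw [pow_add]
    exact mul_le_mul_of_nonneg_left (by exact_mod_cast hy9) (by positivity)
  · rw [c4]
    exact Nat.mul_pos h3 (by positivity)
  · rw [c4, pow_add]
    refine Nat.mul_le_mul h4 (le_trans ?_ hy9)
    have e1 : 3 * G ≤ 100 * G * m := by nlinarith
    have e2 : 4 * G * m + 1 ≤ 100 * G * m := by nlinarith
    have e3 : Fintype.card ι' ≤ 100 * G * m := by nlinarith
    calc _ ≤ 100 * G * m * (100 * G * m * (100 * G * m)) := by gcongr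
      _ = (100 * G * m) ^ 3 := by ring
      _ ≤ _ := Nat.pow_le_pow_right (by nlinarith) (by norm_num)
  · rw [mul_add, pow_add]
    exact Nat.mul_le_mul h6 u6
  · rw [c4, c5]
    calc _ = 6 * 2 ^ k * Fintype.card ι *
          (G * (3 * (4 * G * m + 1) * (2 ^ k' * Fintype.card ι'))) := by ring
      _ ≤ 6 * 2 ^ k * Fintype.card ι *
          (G * (6 * (2 * G * m + 1) * (2 ^ k' * Fintype.card ι'))) := by
        gcongr _ * (_ * (?_ * _))
        linarith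
      _ = 6 * 2 ^ k * Fintype.card ι *
          (G * ((2 * G * m + 1) * (6 * 2 ^ k' * Fintype.card ι'))) := by ring
      _ ≤ _ := by gcongr

theorem TowerGood.iter {g k z : ℕ} (h : TowerGood g k z) (hz : 1 ≤ z) {j : ℕ} (hj : 1 ≤ j) :
    TowerGood g (j * k) (j * 135 * (g * (j * k) + z)) := by
  induction j, hj using Nat.le_induction with
  | base => simpa using h.mono (by omega)
  | succ j _ ih =>
    rw [add_one_mul j k]
    refine (ih.step h).mono ?_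
    rw [mul_add g]
    generalize g * (j * k) = a
    generalize g * k = b
    nlinarith [Nat.zero_le (j * b)]

theorem TowerGood.pow {g z L : ℕ} (h : TowerGood g 1 z) (hz : 1 ≤ z) (hL : 1 ≤ L) (s : ℕ) :
    TowerGood g (L ^ s) (L ^ s * (270 ^ s * (g * L + z))) := by
  induction s with
  | zero => simpa using h.mono (by omega)
  | succ s ih =>
    have h1 : g * L + z ≤ 270 ^ s * (g * L + z) := Nat.le_mul_of_pos_left _ (by positivity)
    rw [pow_succ' L, pow_succ' 270, mul_assoc 270]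
    refine (ih.iter (Nat.mul_pos (by positivity) (by omega)) hL).mono ?_
    have h2 : g * (L * L ^ s) ≤ L ^ s * (270 ^ s * (g * L + z)) := by
      rw [← mul_assoc, mul_comm]
      exact Nat.mul_le_mul_left _ (by omega)
    generalize 270 ^ s * (g * L + z) = a at h2 ⊢
    calc _ ≤ L * 135 * (L ^ s * a + L ^ s * a) := by gcongr
      _ = _ := by ring

/-- gain `2 ^ (2 ^ (t ^ 2))` at size `2 ^ (2 ^ (t ^ 2 + C * t))` -/
theorem tower : ∃ C : ℕ, ∀ t : ℕ, 1 ≤ t → ∃ (ι W : Type) (_ : Fintype ι) (_ : Fintype W)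
    (G β : ℕ) (X : Dat ι W G), X.Q β ∧ X.M 1 1 (2 ^ 2 ^ (t ^ 2 + C * t)) ∧
      1 ≤ Fintype.card ι ∧ Fintype.card ι ≤ 2 ^ 2 ^ (t ^ 2 + C * t) ∧
      6 * 2 ^ 2 ^ (t ^ 2) * Fintype.card ι ≤ Fintype.card W := by
  obtain ⟨g, z, hz, h⟩ := towerAux_base
  refine ⟨9 + (g + z + 1), fun t ht => ?_⟩
  have h1 := h.pow hz (L := 2 ^ t) Nat.one_le_two_pow t
  rw [← pow_mul, ← sq] at h1
  obtain ⟨ι, W, _, _, G, β, X, a1, a2, a3, a4, _, _, a7⟩ :=
    h1.mono (z' := 2 ^ (t ^ 2 + (9 + (g + z + 1)) * t)) (by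
      rw [pow_add, add_mul 9, pow_add, pow_mul 2 9]
      refine Nat.mul_le_mul_left _ (Nat.mul_le_mul (Nat.pow_le_pow_left (by norm_num) t) ?_)
      calc _ ≤ (g + z) * 2 ^ t := by nlinarith [Nat.one_le_two_pow (n := t)]
        _ ≤ 2 ^ (g + z) * 2 ^ t := Nat.mul_le_mul_right _ Nat.lt_two_pow_self.le
        _ ≤ _ := by
          rw [← pow_add]
          exact Nat.pow_le_pow_right two_pos (by nlinarith))
  exact ⟨ι, W, _, _, G, β, X, a1, a2, a3, a4, a7⟩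

/-- many slots at a prescribed low level -/
theorem many_slots : ∃ C : ℕ, ∀ t n k : ℕ, 1 ≤ t → 2 ^ 2 ^ (t ^ 2 + C * t) ≤ k → 2 * k ≤ n →
    ∃ (ι W : Type) (_ : Fintype ι) (_ : Fintype W) (G β : ℕ) (X : Dat ι W G), X.Q β ∧
      β + 1 ≤ k ∧ Fintype.card ι + k ≤ n ∧ n * 2 ^ 2 ^ (t ^ 2) ≤ 8 * Fintype.card W := by
  classical
  obtain ⟨C, h⟩ := tower
  refine ⟨C + 4, fun t n k ht hk hn => ?_⟩
  obtain ⟨ι', W', _, _, G', β', U, u1, u2, u3, u4, u5⟩ := h t ht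
  have hz : 11 + 3 * 2 ^ (t ^ 2 + C * t) ≤ 2 ^ (t ^ 2 + (C + 4) * t) := by
    have h1 : 2 ^ 4 ≤ 2 ^ (4 * t) := Nat.pow_le_pow_right two_pos (by omega)
    rw [add_mul, ← add_assoc, pow_add _ _ (4 * t)]
    nlinarith [Nat.one_le_two_pow (n := t ^ 2 + C * t)]
  replace hk := (Nat.pow_le_pow_right two_pos hz).trans hk
  generalize 2 ^ (t ^ 2 + C * t) = z at u2 u4 hk
  have hT : 1 ≤ 2 ^ 2 ^ (t ^ 2) := Nat.one_le_two_pow
  generalize 2 ^ 2 ^ (t ^ 2) = T at u5 hT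
  obtain ⟨U', b1, b2⟩ := towerAux_round u1 u2
  have hp : 1 ≤ 2 ^ z := Nat.one_le_two_pow
  obtain ⟨m, hm⟩ : ∃ m, m = 40 * (2 ^ z) ^ 2 := ⟨_, rfl⟩
  rw [← hm] at b2
  obtain ⟨ω, hω⟩ : ∃ ω, ω = 3 * 1 * ((4 * 1 * m + 1) * Fintype.card ι') := ⟨_, rfl⟩
  have h1 : 3 * ω ≤ k := by
    refine le_trans ?_ hk
    have e : 4 * 1 * m + 1 ≤ 161 * (2 ^ z) ^ 2 := by nlinarith
    rw [pow_add, mul_comm 3 z, pow_mul, hω]
    calc _ ≤ 3 * (3 * 1 * (161 * (2 ^ z) ^ 2 * 2 ^ z)) := by gcongr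
      _ = 1449 * (2 ^ z) ^ 3 := by ring
      _ ≤ _ := by gcongr; norm_num
  have h2 : Fintype.card ι' ≤ ω := by nlinarith [Nat.zero_le (m * Fintype.card ι')]
  have h3 : β' ≤ Fintype.card ι' := by
    obtain ⟨v⟩ : Nonempty W' := Fintype.card_pos_iff.1 (lt_of_lt_of_le (by positivity) u5)
    rw [← u1.cnt v]
    exact Finset.card_le_univ _
  obtain ⟨K, hK⟩ : ∃ K, K = (n - k) / (2 * ω) := ⟨_, rfl⟩
  have h4 : K * (2 * ω) ≤ n - k := hK ▸ Nat.div_mul_le_self _ _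
  have h5 : n - k < 2 * ω * (K + 1) := hK ▸ Nat.lt_mul_div_succ _ (by omega)
  have h6 : 1 ≤ K := hK ▸ (Nat.le_div_iff_mul_le (by omega)).2 (by omega)
  obtain ⟨X, a1⟩ := exists_par K
  obtain ⟨τ, ε, Z, a2, a3, a4, a5⟩ := exists_M a1
  obtain ⟨X', a6, a7⟩ := rescale a1 a5 a2 a3 one_pos four_pos
  obtain ⟨ι₂, W₂, _, _, Y, τ, _, c2, _, c4, c5⟩ := step a6 a7 b1 b2 le_rfl (by nlinarith) a4
  rw [← hω] at c2 c4
  simp only [Fintype.card_prod, Fintype.card_fin, Fintype.card_bool] at c4 c5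
  refine ⟨ι₂, W₂, ‹_›, ‹_›, _, _, Y, c2, by omega, ?_, ?_⟩
  · rw [c4, mul_assoc]
    omega
  · have h7 : n ≤ 8 * (K * ω) := by
      have : ω ≤ K * ω := Nat.le_mul_of_pos_left _ h6
      have e : 2 * ω * (K + 1) = 2 * (K * ω) + 2 * ω := by ring
      omega
    have h8 : ω * T ≤ 1 * ((2 * 1 * m + 1) * Fintype.card W') :=
      calc _ ≤ 1 * ((2 * 1 * m + 1) * (6 * T * Fintype.card ι')) := by
            nlinarith [Nat.zero_le (T * Fintype.card ι')]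
        _ ≤ _ := by gcongr
    rw [c5]
    calc _ ≤ 8 * (K * ω) * T := by gcongr
      _ = 8 * (K * (ω * T)) := by ring
      _ ≤ _ := by gcongr

end Vale.Agent.P065
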